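import Crest.Agent.R92.Defs

set_option autoImplicit false
open Finset Filter Topology

namespace Crest.Agent.R92

open Crest.AnalysisR.MassAction

variable {d : ℕ}

lemma exists_pos_le {α : Type*} (A : Finset α) (T : α → ℝ) (h : ∀ p ∈ A, 0 < T p) :
    ∃ t : ℝ, 0 < t ∧ ∀ p ∈ A, t ≤ T p := by
  classical
  induction A using Finset.induction_on with
  | empty => exact ⟨1, one_pos, by simp⟩
  | insert a s ha ih =>
    obtain ⟨t, ht, h1⟩ := ih fun p hp => h p (Finset.mem_insert_of_mem hp)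
    refine ⟨min t (T a), lt_min ht (h a (Finset.mem_insert_self a s)), fun p hp => ?_⟩
    rcases Finset.mem_insert.1 hp with rfl | hp
    · exact min_le_right _ _
    · exact (min_le_left _ _).trans (h1 p hp)

theorem B (hU : StU) (hN : StN) : StB := by
  intro d R hR k hk c hc
  obtain ⟨Y, A, hgeo, t0', κ, ht0, ht1, hκ, hact⟩ := hU d (diffs R)
  obtain ⟨tc, htc, hc'⟩ := hgeo.2.1 c hc
  choose T hT using fun a : Fin d → ℝ => hN d R hR k hk a κ hκ
  obtain ⟨t2, ht2, h2⟩ := exists_pos_le A (fun p => T p.1) (fun p _ => (hT p.1).1)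
  refine ⟨min t0' (min tc t2), Y, A, ⟨?_, ?_, hgeo, ?_, ?_⟩⟩
  · exact lt_min ht0 (lt_min htc ht2)
  · exact lt_of_le_of_lt (min_le_left _ _) ht1
  · intro t hpos hle x hx p hp hxp
    have hle0 : t ≤ t0' := hle.trans (min_le_left _ _)
    have hle2 : t ≤ T p.1 :=
      (hle.trans ((min_le_right _ _).trans (min_le_right _ _))).trans (h2 p hp)
    have hlt1 : t < 1 := lt_of_le_of_lt hle0 ht1
    have hxpos : ∀ i, 0 < x i := fun i =>
      lt_of_lt_of_le (Real.rpow_pos_of_pos hpos Y) (hgeo.1 t hpos hlt1 x hx i).1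
    exact (hT p.1).2.2 t hpos hle2 x hxpos (fun h hh hha => hact t hpos hle0 x hx p hp hxp h hh hha)
  · intro t hpos hle
    exact hc' t hpos (hle.trans ((min_le_right _ _).trans (min_le_left _ _)))

end Crest.Agent.R92
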