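import Crest.Agent.R92.Defs

/-! Row 92, task C1: existence of good marks. -/

set_option autoImplicit false

namespace Crest.Agent.R92

namespace C1T

variable {d : ℕ}

theorem Fam_succ (W : Finset (Fin d → ℤ)) (k : ℕ) : Fam W k ⊆ Fam W (k + 1) :=
  Finset.subset_union_left

theorem Fam_mono (W : Finset (Fin d → ℤ)) {k l : ℕ} (h : k ≤ l) : Fam W k ⊆ Fam W l := by
  induction h with
  | refl => exact subset_rfl
  | step _ ih => exact ih.trans (Fam_succ W _)

theorem elimv_mem (W : Finset (Fin d → ℤ)) (k : ℕ) (P : Finset (Fin d)) {h h' : Fin d → ℤ}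
    (h1 : h ∈ Fam W k) (h2 : h' ∈ Fam W k) : elimv P h h' ∈ Fam W (k + 1) := by
  refine Finset.mem_union_right _ (Finset.mem_image.2 ⟨((h, h'), P), ?_, rfl⟩)
  rw [Finset.mem_product, Finset.mem_product]
  exact ⟨⟨h1, h2⟩, Finset.mem_univ _⟩

theorem hv_elimv (P : Finset (Fin d)) (h h' : Fin d → ℤ) (v : Fin d → ℝ) :
    hv (elimv P h h') v = (zs h' P : ℝ) * hv h v - (zs h P : ℝ) * hv h' v := by
  unfold hv elimv
  rw [Finset.mul_sum, Finset.mul_sum, ← Finset.sum_sub_distrib]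
  refine Finset.sum_congr rfl fun i _ => ?_
  push_cast
  ring

theorem hv_bump (P : Finset (Fin d)) (h : Fin d → ℤ) (v : Fin d → ℝ) (s : ℝ) :
    hv h (bump v P s) = hv h v + s * (zs h P : ℝ) := by
  unfold hv bump zs
  push_cast
  rw [Finset.mul_sum, ← Finset.sum_filter_add_sum_filter_not Finset.univ (fun i => i ∈ P)
    (fun i => (h i : ℝ) * if i ∈ P then v i + s else v i),
    ← Finset.sum_filter_add_sum_filter_not Finset.univ (fun i => i ∈ P)
    (fun i => (h i : ℝ) * v i)]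
  have e1 : Finset.univ.filter (fun i => i ∈ P) = P := by ext i; simp
  rw [e1]
  have e2 : ∑ i ∈ P, ((h i : ℝ) * if i ∈ P then v i + s else v i) =
      ∑ i ∈ P, (h i : ℝ) * v i + ∑ i ∈ P, s * (h i : ℝ) := by
    rw [← Finset.sum_add_distrib]
    refine Finset.sum_congr rfl fun i hi => ?_
    rw [if_pos hi]; ring
  have e3 : ∑ i with ¬ i ∈ P, ((h i : ℝ) * if i ∈ P then v i + s else v i) =
      ∑ i with ¬ i ∈ P, (h i : ℝ) * v i := by
    refine Finset.sum_congr rfl fun i hi => ?_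
    rw [Finset.mem_filter] at hi
    rw [if_neg hi.2]
  rw [e2, e3]
  ring

theorem zs_le (W : Finset (Fin d → ℤ)) (C : ℝ) (hC : BdF W C) {k : ℕ} (hk : k ≤ d)
    (P : Finset (Fin d)) {h : Fin d → ℤ} (hh : h ∈ Fam W k) : |(zs h P : ℝ)| ≤ C := by
  refine le_trans ?_ (hC.2 h (Fam_mono W hk hh))
  unfold zs
  push_cast
  refine (Finset.abs_sum_le_sum_abs _ _).trans ?_
  exact Finset.sum_le_sum_of_subset_of_nonneg (Finset.subset_univ _) fun i _ _ => abs_nonneg _

theorem RR_ge (C : ℝ) (hC : 1 ≤ C) (k : ℕ) : 2 ≤ RR C k := by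
  induction k with
  | zero => simp only [RR]; linarith
  | succ k ih =>
    simp only [RR]
    have h1 : 1 ≤ C ^ 2 := one_le_pow₀ hC
    have h2 : 4 ≤ RR C k ^ 2 := by nlinarith
    nlinarith

theorem exists_mk (hM1 : StM1) (W : Finset (Fin d → ℤ)) (C Y : ℝ) (hC : BdF W C)
    (v : Fin d → ℝ) (n : ℝ) (P : Finset (Fin d)) (e : ℝ) (hval : Valid W C v n P e)
    (hP : P.Nonempty) : ∃ m : Mk, GoodMk W C Y ⟨v, n, P, e⟩ m := by
  classical
  obtain ⟨hv1, he, hsep⟩ := hval
  obtain ⟨k, hk⟩ : ∃ k, P.card = k + 1 := ⟨P.card - 1, by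
    have := hP.card_pos; omega⟩
  have hC1 : 1 ≤ C := hC.1
  have hC0 : 0 < C := by linarith
  have hkd : k + 1 ≤ d := by
    rw [← hk]
    simpa using P.card_le_univ
  have hkd' : k ≤ d := by omega
  set ρ := RR C k with hρ
  have hρ2 : 2 ≤ ρ := RR_ge C hC1 k
  rw [hk] at hsep
  have hRR : RR C (k + 1) = 4 * C ^ 2 * ρ ^ 2 := rfl
  rw [hRR] at hsep
  set D := 4 * C ^ 2 * ρ ^ 2 * e with hD
  have hom : om C P.card e = 2 * ρ * e := by
    rw [om, hk, Nat.add_sub_cancel]
  set ω := 2 * ρ * e with hω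
  have hω0 : 0 < ω := by positivity
  have heω : e ≤ ω := by nlinarith
  -- numerics
  have hD0 : 0 < D := by positivity
  have hρe : 0 < ρ * e := by positivity
  have hρ2e : 2 * (ρ * e) ≤ ρ ^ 2 * e := by nlinarith
  have hDC2 : 4 * ρ ^ 2 * e * C ^ 2 = D := by rw [hD]; ring
  have hDC : 4 * C * ρ ^ 2 * e * C = D := by rw [hD]; ring
  have n1 : 3 * ω ≤ 4 * ρ ^ 2 * e := by rw [hω]; nlinarith
  have n2 : 4 * ρ ^ 2 * e ≤ 4 * C * ρ ^ 2 * e := by
    have : 0 < ρ ^ 2 * e := by positivity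
    nlinarith
  have n3 : 4 * C * ρ ^ 2 * e ≤ D := by
    rw [← hDC]
    have : 0 < 4 * C * ρ ^ 2 * e := by positivity
    nlinarith
  have n4 : ρ * ω ≤ 4 * ρ ^ 2 * e := by rw [hω]; nlinarith
  set zf : (Fin d → ℤ) → ℝ := fun h => - hv h v / (zs h P : ℝ) with hzf
  set Z : Finset ℝ := (((Fam W k).filter (fun h => zs h P ≠ 0)).image zf).filter (fun ζ => 0 < ζ)
    with hZ
  have memZ : ∀ ζ, ζ ∈ Z ↔ (∃ h ∈ Fam W k, zs h P ≠ 0 ∧ zf h = ζ) ∧ 0 < ζ := by
    intro ζ
    rw [hZ, Finset.mem_filter, Finset.mem_image]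
    constructor
    · rintro ⟨⟨h, h1, h2⟩, h3⟩
      rw [Finset.mem_filter] at h1
      exact ⟨⟨h, h1.1, h1.2, h2⟩, h3⟩
    · rintro ⟨⟨h, h1, h2, h4⟩, h3⟩
      exact ⟨⟨h, Finset.mem_filter.2 ⟨h1, h2⟩, h4⟩, h3⟩
  have hzpos : ∀ h : Fin d → ℤ, zs h P ≠ 0 → 0 < |(zs h P : ℝ)| := fun h h1 =>
    abs_pos.2 (Int.cast_ne_zero.2 h1)
  have hz1 : ∀ h : Fin d → ℤ, zs h P ≠ 0 → 1 ≤ |(zs h P : ℝ)| := by
    intro h h1
    have : (1 : ℤ) ≤ |zs h P| := Int.one_le_abs h1
    have h2 : ((1 : ℤ) : ℝ) ≤ ((|zs h P| : ℤ) : ℝ) := by exact_mod_cast this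
    rwa [Int.cast_one, Int.cast_abs] at h2
  -- (1)
  have hZ1 : ∀ ζ ∈ Z, 3 * ω ≤ ζ := by
    intro ζ hζ
    obtain ⟨⟨h, h1, h2, rfl⟩, h3⟩ := (memZ ζ).1 hζ
    have h4 : hv h v ≠ 0 := by
      intro h0
      rw [hzf] at h3
      simp [h0] at h3
    have h5 : D ≤ |hv h v| := (hsep h (Fam_succ W k h1)).resolve_left h4
    have h6 : zf h = |hv h v| / |(zs h P : ℝ)| := by
      have h8 : zf h = -(hv h v / (zs h P : ℝ)) := by rw [hzf]; exact neg_div _ _
      rw [← abs_div, ← abs_of_pos h3, h8, abs_neg]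
    rw [h6, le_div_iff₀ (hzpos h h2)]
    have h7 := zs_le W C hC hkd' P h1
    calc 3 * ω * |(zs h P : ℝ)| ≤ 3 * ω * C := by
          exact mul_le_mul_of_nonneg_left h7 (by positivity)
      _ ≤ 4 * C * ρ ^ 2 * e * C := mul_le_mul_of_nonneg_right (n1.trans n2) hC0.le
      _ = D := hDC
      _ ≤ _ := h5
  -- (2)
  have hZ2 : ∀ ζ ∈ Z, ∀ ζ' ∈ Z, ζ ≠ ζ' → 3 * ω ≤ |ζ - ζ'| := by
    intro ζ hζ ζ' hζ' hne
    obtain ⟨⟨h, h1, h2, rfl⟩, -⟩ := (memZ ζ).1 hζ
    obtain ⟨⟨h', h1', h2', rfl⟩, -⟩ := (memZ ζ').1 hζ'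
    have hz : (zs h P : ℝ) ≠ 0 := Int.cast_ne_zero.2 h2
    have hz' : (zs h' P : ℝ) ≠ 0 := Int.cast_ne_zero.2 h2'
    have e1 : zf h - zf h' = - hv (elimv P h h') v / ((zs h P : ℝ) * (zs h' P : ℝ)) := by
      rw [hv_elimv, hzf]
      field_simp
      ring
    have h4 : hv (elimv P h h') v ≠ 0 := by
      intro h0
      rw [h0, neg_zero, zero_div] at e1
      exact hne (sub_eq_zero.1 e1)
    have h5 : D ≤ |hv (elimv P h h') v| :=
      (hsep _ (elimv_mem W k P h1 h1')).resolve_left h4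
    rw [e1, abs_div, abs_neg, abs_mul, le_div_iff₀ (mul_pos (hzpos h h2) (hzpos h' h2'))]
    have h7 := zs_le W C hC hkd' P h1
    have h7' := zs_le W C hC hkd' P h1'
    have h8 : |(zs h P : ℝ)| * |(zs h' P : ℝ)| ≤ C * C :=
      mul_le_mul h7 h7' (abs_nonneg _) hC0.le
    calc 3 * ω * (|(zs h P : ℝ)| * |(zs h' P : ℝ)|) ≤ 3 * ω * (C * C) :=
          mul_le_mul_of_nonneg_left h8 (by positivity)
      _ ≤ 4 * ρ ^ 2 * e * (C * C) := mul_le_mul_of_nonneg_right n1 (by positivity)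
      _ = D := by rw [← hDC2]; ring
      _ ≤ _ := h5
  obtain ⟨m, h0, hb0, herr0, hsm, hsb, hbs, hbK, hee, hbse, hsbe, hlast⟩ :=
    hM1 ω e Y n he heω Z hZ1 hZ2
  refine ⟨m, ?_⟩
  constructor
  · exact h0
  · change m.b 0 = n + om C P.card e
    rw [hom]; exact hb0
  · change m.err 0 = om C P.card e
    rw [hom]; exact herr0
  · exact hsm
  · exact hsb
  · exact hbs
  · exact hbK
  · exact hee
  · exact hbse
  · exact hsbe
  · intro j hj q hq
    change q ∈ P at hq
    have hcard : (P.erase q).card = k := by rw [Finset.card_erase_of_mem hq, hk]; rfl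
    have herrpos : 0 < m.err j := he.trans_le (hee j hj)
    refine ⟨?_, herrpos, ?_⟩
    · intro i hi
      have hi' : i ∈ P := Finset.mem_of_mem_erase hi
      change (if i ∈ P then v i + m.s j else v i) = n + m.s j
      rw [if_pos hi', hv1 i hi']
    · rw [hcard]
      intro h hh
      change hv h (bump v P (m.s j)) = 0 ∨ RR C k * m.err j ≤ |hv h (bump v P (m.s j))|
      rw [← hρ]
      have hD' := hsep h (Fam_succ W k hh)
      rcases Nat.eq_zero_or_pos j with hj0 | hj0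
      · subst hj0
        rw [h0, hv_bump, zero_mul, add_zero, herr0]
        rcases hD' with h1 | h1
        · exact Or.inl h1
        · exact Or.inr ((n4.trans (n2.trans n3)).trans h1)
      · rcases hlast j hj0 hj with ⟨h1, h2⟩ | ⟨h1, h2, h3⟩
        · rw [h2]
          obtain ⟨⟨g, hg1, hg2, hg3⟩, -⟩ := (memZ _).1 h1
          have hz : (zs g P : ℝ) ≠ 0 := Int.cast_ne_zero.2 hg2
          have e1 : hv h (bump v P (m.s j)) = hv (elimv P h g) v / (zs g P : ℝ) := by
            rw [hv_bump, hv_elimv, ← hg3, hzf]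
            field_simp
            ring
          rcases hsep _ (elimv_mem W k P hh hg1) with h4 | h4
          · left; rw [e1, h4, zero_div]
          · right
            rw [e1, abs_div, le_div_iff₀ (hzpos g hg2)]
            have h7 := zs_le W C hC hkd' P hg1
            calc ρ * ω * |(zs g P : ℝ)| ≤ ρ * ω * C :=
                  mul_le_mul_of_nonneg_left h7 (by positivity)
              _ ≤ 4 * C * ρ ^ 2 * e * C :=
                  mul_le_mul_of_nonneg_right (n4.trans n2) hC0.le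
              _ = D := hDC
              _ ≤ _ := h4
        · rw [h1]
          have hρeD : ρ * e ≤ D := by
            have : ρ * e ≤ ρ * ω := mul_le_mul_of_nonneg_left heω (by linarith)
            exact this.trans (n4.trans (n2.trans n3))
          by_cases hz0 : zs h P = 0
          · rw [hv_bump, hz0, Int.cast_zero, mul_zero, add_zero]
            rcases hD' with h4 | h4
            · exact Or.inl h4
            · exact Or.inr (hρeD.trans h4)
          · right
            have hz : (zs h P : ℝ) ≠ 0 := Int.cast_ne_zero.2 hz0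
            have e1 : hv h (bump v P (m.s j)) = (zs h P : ℝ) * (m.s j - zf h) := by
              rw [hv_bump, hzf]
              field_simp
              ring
            have h5 : ρ * e ≤ |m.s j - zf h| := by
              have h6 : ρ * e = ω / 2 := by rw [hω]; ring
              rw [h6]
              rcases le_or_gt (zf h) 0 with h7 | h7
              · refine le_trans ?_ (le_abs_self _)
                linarith
              · exact h3 _ ((memZ _).2 ⟨⟨h, hh, hz0, rfl⟩, h7⟩)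
            rw [e1, abs_mul]
            calc ρ * e ≤ 1 * |m.s j - zf h| := by rw [one_mul]; exact h5
              _ ≤ _ := mul_le_mul_of_nonneg_right (hz1 h hz0) (abs_nonneg _)

end C1T

theorem C1 : StM1 → StC1 := by
  classical
  intro hM1 d W C Y hC
  have key : ∀ σ : St d, ∃ m : Mk, (Valid W C σ.v σ.n σ.P σ.e ∧ σ.P.Nonempty) →
      GoodMk W C Y σ m := by
    rintro ⟨v, n, P, e⟩
    by_cases h : Valid W C v n P e ∧ P.Nonempty
    · obtain ⟨m, hm⟩ := C1T.exists_mk hM1 W C Y hC v n P e h.1 h.2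
      exact ⟨m, fun _ => hm⟩
    · exact ⟨⟨0, fun _ => 0, fun _ => 0, fun _ => 0⟩, fun h' => absurd h' h⟩
  choose M hM using key
  exact ⟨M, fun v n P e h1 h2 => hM ⟨v, n, P, e⟩ ⟨h1, h2⟩⟩

end Crest.Agent.R92
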