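import Mathlib
import Crest.Prelude.Def_MassAction

/-! Row 92 (S0122): definitions and task statements.

The invariant sets are `K_t = {x | ∀ p ∈ A, p.2 t ≤ ip p.1 x}` for a finite set `A` of
pairs (normal vector, offset as a function of `t`), `t → 0+`.
-/

set_option autoImplicit false
open Finset Filter Topology

namespace Crest.Agent.R92

open Crest.AnalysisR.MassAction

variable {d : ℕ}

/-- pairing of an integer vector with a real vector -/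
noncomputable def hv (h : Fin d → ℤ) (v : Fin d → ℝ) : ℝ := ∑ i, (h i : ℝ) * v i

/-- inner product -/
noncomputable def ip (a x : Fin d → ℝ) : ℝ := ∑ i, a i * x i

/-- sum of the entries of `h` over `P` -/
def zs (h : Fin d → ℤ) (P : Finset (Fin d)) : ℤ := ∑ i ∈ P, h i

/-- eliminate the `P`-sum from `h, h'` -/
def elimv (P : Finset (Fin d)) (h h' : Fin d → ℤ) : Fin d → ℤ :=
  fun i => zs h' P * h i - zs h P * h' i

/-- the growing families of integer vectors -/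
def Fam (W : Finset (Fin d → ℤ)) : ℕ → Finset (Fin d → ℤ)
  | 0 => W
  | k + 1 => Fam W k ∪ ((Fam W k ×ˢ Fam W k) ×ˢ (Finset.univ : Finset (Finset (Fin d)))).image
      (fun t => elimv t.2 t.1.1 t.1.2)

/-- `C` bounds the `ℓ¹` norms of the vectors of `Fam W d` (hence of all `Fam W k`, `k ≤ d`) -/
def BdF (W : Finset (Fin d → ℤ)) (C : ℝ) : Prop :=
  1 ≤ C ∧ ∀ h ∈ Fam W d, ∑ i, |(h i : ℝ)| ≤ C

/-- the constants -/
noncomputable def RR (C : ℝ) : ℕ → ℝ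
  | 0 => 2 * C
  | k + 1 => 4 * C ^ 2 * (RR C k) ^ 2

/-- the width of tie/zero intervals at a state with `card P = k` and error `e` -/
noncomputable def om (C : ℝ) (k : ℕ) (e : ℝ) : ℝ := 2 * RR C (k - 1) * e

/-- separation -/
def Sep (W : Finset (Fin d → ℤ)) (k : ℕ) (v : Fin d → ℝ) (D : ℝ) : Prop :=
  ∀ h ∈ Fam W k, hv h v = 0 ∨ D ≤ |hv h v|

/-- valid states -/
def Valid (W : Finset (Fin d → ℤ)) (C : ℝ) (v : Fin d → ℝ) (n : ℝ) (P : Finset (Fin d))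
    (e : ℝ) : Prop :=
  (∀ i ∈ P, v i = n) ∧ 0 < e ∧ Sep W P.card v (RR C P.card * e)

/-- raise the coordinates in `P` by `s` -/
def bump (v : Fin d → ℝ) (P : Finset (Fin d)) (s : ℝ) : Fin d → ℝ :=
  fun i => if i ∈ P then v i + s else v i

/-- mark data -/
structure Mk where
  K : ℕ
  s : ℕ → ℝ
  b : ℕ → ℝ
  err : ℕ → ℝ

/-- states -/
structure St (d : ℕ) where
  v : Fin d → ℝ
  n : ℝ
  P : Finset (Fin d)
  e : ℝ

/-- good marks at a state -/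
structure GoodMk (W : Finset (Fin d → ℤ)) (C Y : ℝ) (σ : St d) (m : Mk) : Prop where
  s0 : m.s 0 = 0
  b0 : m.b 0 = σ.n + om C σ.P.card σ.e
  err0 : m.err 0 = om C σ.P.card σ.e
  smono : ∀ j < m.K, m.s j < m.s (j + 1)
  sb : ∀ j ≤ m.K, σ.n + m.s j < m.b j
  bs : ∀ j < m.K, m.b j < σ.n + m.s (j + 1)
  bK : Y ≤ m.b m.K
  eerr : ∀ j ≤ m.K, σ.e ≤ m.err j
  bs_err : ∀ j ≤ m.K, m.b j - (σ.n + m.s j) ≤ m.err j
  sb_err : ∀ j < m.K, σ.n + m.s (j + 1) - m.b j ≤ m.err (j + 1)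
  sub : ∀ j ≤ m.K, ∀ q ∈ σ.P,
    Valid W C (bump σ.v σ.P (m.s j)) (σ.n + m.s j) (σ.P.erase q) (m.err j)

/-- a global choice of marks that is good on valid nonempty states -/
def Good (W : Finset (Fin d → ℤ)) (C Y : ℝ) (M : St d → Mk) : Prop :=
  ∀ (v : Fin d → ℝ) (n : ℝ) (P : Finset (Fin d)) (e : ℝ), Valid W C v n P e → P.Nonempty →
    GoodMk W C Y ⟨v, n, P, e⟩ (M ⟨v, n, P, e⟩)

/-- the offset increment of mark `j` -/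
noncomputable def epsf (m : Mk) (j : ℕ) (t : ℝ) : ℝ :=
  ∑ l ∈ Finset.range j, (m.s (l + 1) - m.s l) * t ^ (m.b l)

/-- paths from a state to a final pair `(a, E)` (normal, offset function) -/
inductive Path (M : St d → Mk) :
    (Fin d → ℝ) → ℝ → Finset (Fin d) → ℝ → (Fin d → ℝ) → (ℝ → ℝ) → Prop
  | nil (v : Fin d → ℝ) (n e : ℝ) : Path M v n ∅ e v (fun _ => 0)
  | cons (v : Fin d → ℝ) (n : ℝ) (P : Finset (Fin d)) (e : ℝ) (q : Fin d) (j : ℕ)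
      (a : Fin d → ℝ) (E : ℝ → ℝ) (hq : q ∈ P) (hj : j ≤ (M ⟨v, n, P, e⟩).K)
      (h : Path M (bump v P ((M ⟨v, n, P, e⟩).s j)) (n + (M ⟨v, n, P, e⟩).s j) (P.erase q)
        ((M ⟨v, n, P, e⟩).err j) a E) :
      Path M v n P e a (fun t => (P.card : ℝ) * epsf (M ⟨v, n, P, e⟩) j t + E t)

/-! ### Task statements -/

/-- M1: marks on a line. -/
def StM1 : Prop :=
  ∀ (ω e Y n : ℝ), 0 < e → e ≤ ω → ∀ Z : Finset ℝ, (∀ ζ ∈ Z, 3 * ω ≤ ζ) →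
    (∀ ζ ∈ Z, ∀ ζ' ∈ Z, ζ ≠ ζ' → 3 * ω ≤ |ζ - ζ'|) →
    ∃ m : Mk, m.s 0 = 0 ∧ m.b 0 = n + ω ∧ m.err 0 = ω ∧
      (∀ j < m.K, m.s j < m.s (j + 1)) ∧ (∀ j ≤ m.K, n + m.s j < m.b j) ∧
      (∀ j < m.K, m.b j < n + m.s (j + 1)) ∧ Y ≤ m.b m.K ∧ (∀ j ≤ m.K, e ≤ m.err j) ∧
      (∀ j ≤ m.K, m.b j - (n + m.s j) ≤ m.err j) ∧
      (∀ j < m.K, n + m.s (j + 1) - m.b j ≤ m.err (j + 1)) ∧
      (∀ j, 1 ≤ j → j ≤ m.K → (m.s j ∈ Z ∧ m.err j = ω) ∨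
        (m.err j = e ∧ ω / 2 ≤ m.s j ∧ ∀ ζ ∈ Z, ω / 2 ≤ |m.s j - ζ|))

/-- C1: existence of a good choice of marks. -/
def StC1 : Prop :=
  ∀ (d : ℕ) (W : Finset (Fin d → ℤ)) (C Y : ℝ), BdF W C → ∃ M : St d → Mk, Good W C Y M

/-- P: basic path facts. -/
def StP : Prop :=
  ∀ (d : ℕ) (W : Finset (Fin d → ℤ)) (C Y : ℝ) (M : St d → Mk), 1 ≤ C → Good W C Y M →
    ∀ (v : Fin d → ℝ) (n : ℝ) (P : Finset (Fin d)) (e : ℝ) (a : Fin d → ℝ) (E : ℝ → ℝ),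
      Valid W C v n P e → Path M v n P e a E →
      (∀ i, i ∉ P → a i = v i) ∧ (∀ i ∈ P, n ≤ a i) ∧
      (∀ t : ℝ, 0 < t → t < 1 → 0 ≤ E t ∧
        E t ≤ (∑ i ∈ P, (a i - n)) * t ^ (n + om C P.card e)) ∧
      ContDiffOn ℝ 1 E (Set.Ioi 0)

/-- PF: finitely many path results (any `M`, any state). -/
def StPF : Prop :=
  ∀ (d : ℕ) (M : St d → Mk) (v : Fin d → ℝ) (n : ℝ) (P : Finset (Fin d)) (e : ℝ),
    {p : (Fin d → ℝ) × (ℝ → ℝ) | Path M v n P e p.1 p.2}.Finite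

/-- PC: the all-ties path. -/
def StPC : Prop :=
  ∀ (d : ℕ) (W : Finset (Fin d → ℤ)) (C Y : ℝ) (M : St d → Mk), Good W C Y M →
    ∀ (v : Fin d → ℝ) (n : ℝ) (P : Finset (Fin d)) (e : ℝ), Valid W C v n P e →
      Path M v n P e v (fun _ => 0)

/-- PS: swapping a tie. -/
def StPS : Prop :=
  ∀ (d : ℕ) (W : Finset (Fin d → ℤ)) (C Y : ℝ) (M : St d → Mk), 1 ≤ C → Good W C Y M →
    ∀ (v : Fin d → ℝ) (n : ℝ) (P : Finset (Fin d)) (e : ℝ) (a : Fin d → ℝ) (E : ℝ → ℝ)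
      (i : Fin d), Valid W C v n P e → Path M v n P e a E → i ∈ P → a i = n →
      Path M v n (P.erase i) (om C P.card e) a E

/-- `y` is the limit of `log x / log t` along a sequence. -/
structure LogSeq (t : ℕ → ℝ) (x : ℕ → Fin d → ℝ) (y : Fin d → ℝ) : Prop where
  t01 : ∀ m, 0 < t m ∧ t m < 1
  tlim : Tendsto t atTop (𝓝 0)
  xpos : ∀ m i, 0 < x m i
  ylim : ∀ i, Tendsto (fun m => Real.log (x m i) / Real.log (t m)) atTop (𝓝 (y i))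

/-- L: localization. -/
def StL : Prop :=
  ∀ (d : ℕ) (W : Finset (Fin d → ℤ)) (C Y : ℝ) (M : St d → Mk), BdF W C → Good W C Y M →
    ∀ (v : Fin d → ℝ) (n : ℝ) (P : Finset (Fin d)) (e : ℝ) (a : Fin d → ℝ) (E : ℝ → ℝ)
      (t : ℕ → ℝ) (x : ℕ → Fin d → ℝ) (y : Fin d → ℝ),
      Valid W C v n P e → Path M v n P e a E → LogSeq t x y →
      (∀ a' E', Path M v n P e a' E' → ∀ m, ip a (x m) - E (t m) ≤ ip a' (x m) - E' (t m)) →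
      (∀ i, i ∉ P → |y i - v i| ≤ e) → (∀ i ∈ P, n - e ≤ y i) → (∀ i ∈ P, y i ≤ Y) →
      ∀ h ∈ W, 0 < hv h a → 0 < hv h y

/-- the set `K_t` -/
def KK (A : Finset ((Fin d → ℝ) × (ℝ → ℝ))) (t : ℝ) : Set (Fin d → ℝ) :=
  {x | ∀ p ∈ A, p.2 t ≤ ip p.1 x}

/-- the parts (i), (ii), (iii) of the geometric theorem -/
def Geo0 (Y : ℝ) (A : Finset ((Fin d → ℝ) × (ℝ → ℝ))) : Prop :=
  (∀ t, 0 < t → t < 1 → ∀ x ∈ KK A t, ∀ i, t ^ Y ≤ x i ∧ x i ≤ t⁻¹) ∧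
  (∀ x : Fin d → ℝ, (∀ i, 0 < x i) → ∃ t₁, 0 < t₁ ∧ ∀ t, 0 < t → t ≤ t₁ → x ∈ KK A t) ∧
  (∀ p ∈ A, ContDiffOn ℝ 1 p.2 (Set.Ioi 0))

/-- G: the geometric theorem, sequence version. -/
def StG : Prop :=
  ∀ (d : ℕ) (W : Finset (Fin d → ℤ)), ∃ (Y : ℝ) (A : Finset ((Fin d → ℝ) × (ℝ → ℝ))),
    Geo0 Y A ∧
    ∀ p ∈ A, ∀ (t : ℕ → ℝ) (x : ℕ → Fin d → ℝ) (y : Fin d → ℝ), LogSeq t x y →
      (∀ m, x m ∈ KK A (t m)) → (∀ m, ip p.1 (x m) = p.2 (t m)) →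
      ∀ h ∈ W, 0 < hv h p.1 → 0 < hv h y

/-- U: the geometric theorem, uniform version. -/
def StU : Prop :=
  ∀ (d : ℕ) (W : Finset (Fin d → ℤ)), ∃ (Y : ℝ) (A : Finset ((Fin d → ℝ) × (ℝ → ℝ))),
    Geo0 Y A ∧
    ∃ t₀ κ : ℝ, 0 < t₀ ∧ t₀ < 1 ∧ 0 < κ ∧ ∀ t, 0 < t → t ≤ t₀ → ∀ x ∈ KK A t, ∀ p ∈ A,
      ip p.1 x = p.2 t → ∀ h ∈ W, 0 < hv h p.1 →
        κ ≤ hv h (fun i => Real.log (x i) / Real.log t)

/-- the complexes of a network -/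
def cplx (R : Network d) : Finset (Fin d → ℕ) := R.image Prod.fst ∪ R.image Prod.snd

/-- all differences of complexes, as integer vectors -/
def diffs (R : Network d) : Finset (Fin d → ℤ) :=
  (cplx R ×ˢ cplx R).image (fun pq => fun i => (pq.1 i : ℤ) - (pq.2 i : ℤ))

/-- N: the network lemma. -/
def StN : Prop :=
  ∀ (d : ℕ) (R : Network d), IsWeaklyReversible R →
    ∀ (k : (Fin d → ℕ) × (Fin d → ℕ) → ℝ), (∀ r ∈ R, 0 < k r) →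
    ∀ (a : Fin d → ℝ) (κ : ℝ), 0 < κ → ∃ t₁ : ℝ, 0 < t₁ ∧ t₁ < 1 ∧ ∀ t, 0 < t → t ≤ t₁ →
      ∀ x : Fin d → ℝ, (∀ i, 0 < x i) →
      (∀ h ∈ diffs R, 0 < hv h a → κ ≤ hv h (fun i => Real.log (x i) / Real.log t)) →
      (∀ r ∈ R, ip a (reactionVector r) = 0) ∨ 0 < ip a (field R k x)

/-- O1: the barrier lemma (no invariance of any set needed: purely about real functions). -/
def StO1 : Prop :=
  ∀ (ι : Type) (_ : Fintype ι) (g : ι → ℝ → ℝ) (T : ℝ), 0 ≤ T →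
    (∀ i, ContinuousOn (g i) (Set.Icc 0 T)) → (∀ i, 0 ≤ g i 0) →
    (∀ s, 0 ≤ s → s < T → (∀ i, 0 ≤ g i s) → ∀ i, g i s = 0 →
      (∃ g' : ℝ, 0 < g' ∧ HasDerivWithinAt (g i) g' (Set.Ici s) s) ∨
      (∀ u, s ≤ u → u ≤ T → 0 ≤ g i u)) →
    ∀ i, ∀ s, 0 ≤ s → s ≤ T → 0 ≤ g i s

/-- O2: class invariance. -/
def StO2 : Prop :=
  ∀ (d : ℕ) (S : Submodule ℝ (Fin d → ℝ)) (x F : ℝ → (Fin d → ℝ)),
    (∀ t, 0 ≤ t → HasDerivWithinAt x (F t) (Set.Ici 0) t) → (∀ t, 0 ≤ t → F t ∈ S) →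
    ∀ t, 0 ≤ t → x t - x 0 ∈ S

/-- O3: uniqueness of forward solutions of the mass-action field. -/
def StO3 : Prop :=
  ∀ (d : ℕ) (R : Network d) (k : (Fin d → ℕ) × (Fin d → ℕ) → ℝ) (x x' : ℝ → (Fin d → ℝ)),
    IsForwardSolution (field R k) x → IsForwardSolution (field R k) x' → x 0 = x' 0 →
    ∀ t : ℝ, 0 ≤ t → x t = x' t

/-- clamping to a box -/
noncomputable def clampv (l u : ℝ) (x : Fin d → ℝ) : Fin d → ℝ := fun i => max l (min u (x i))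

/-- O4: global forward existence for the clamped field. -/
def StO4 : Prop :=
  ∀ (d : ℕ) (R : Network d) (k : (Fin d → ℕ) × (Fin d → ℕ) → ℝ) (l u : ℝ), 0 < l → l ≤ u →
    ∀ x₀ : Fin d → ℝ, ∃ x : ℝ → (Fin d → ℝ), x 0 = x₀ ∧
      IsForwardSolution (fun z => field R k (clampv l u z)) x

/-- the barrier system -/
structure BSys (R : Network d) (k : (Fin d → ℕ) × (Fin d → ℕ) → ℝ) (c : Fin d → ℝ)
    (t₀ Y : ℝ) (A : Finset ((Fin d → ℝ) × (ℝ → ℝ))) : Prop where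
  t0pos : 0 < t₀
  t0lt : t₀ < 1
  geo : Geo0 Y A
  act : ∀ t, 0 < t → t ≤ t₀ → ∀ x ∈ KK A t, ∀ p ∈ A, ip p.1 x = p.2 t →
    (∀ r ∈ R, ip p.1 (reactionVector r) = 0) ∨ 0 < ip p.1 (field R k x)
  cmem : ∀ t, 0 < t → t ≤ t₀ → c ∈ KK A t

/-- B: existence of the barrier system (from U and N). -/
def StB : Prop :=
  ∀ (d : ℕ) (R : Network d), IsWeaklyReversible R →
    ∀ (k : (Fin d → ℕ) × (Fin d → ℕ) → ℝ), (∀ r ∈ R, 0 < k r) →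
    ∀ c : Fin d → ℝ, (∀ i, 0 < c i) →
    ∃ (t₀ Y : ℝ) (A : Finset ((Fin d → ℝ) × (ℝ → ℝ))), BSys R k c t₀ Y A

/-- V0: static invariance. `F` is any field agreeing with the mass-action field on the sets
`K_t`, with values in the stoichiometric subspace. -/
def StV0 : Prop :=
  ∀ (d : ℕ) (R : Network d) (k : (Fin d → ℕ) × (Fin d → ℕ) → ℝ) (c : Fin d → ℝ) (t₀ Y : ℝ)
    (A : Finset ((Fin d → ℝ) × (ℝ → ℝ))), (∀ i, 0 < c i) → BSys R k c t₀ Y A →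
    ∀ F : (Fin d → ℝ) → (Fin d → ℝ), (∀ x ∈ KK A t₀, F x = field R k x) →
      (∀ x, F x ∈ stoichSubspace R) →
      ∀ x : ℝ → (Fin d → ℝ), IsForwardSolution F x → x 0 ∈ KK A t₀ →
        x 0 - c ∈ stoichSubspace R → ∀ s, 0 ≤ s → x s ∈ KK A t₀ ∧ x s - c ∈ stoichSubspace R

/-- V1: moving barrier. For every starting parameter `τ₀ < t₀` there is `ε > 0` such that
solutions starting in `K_{τ₀}` stay in `K_{τ₀ + ε s}` while `τ₀ + ε s ≤ t₀`. -/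
def StV1 : Prop :=
  ∀ (d : ℕ) (R : Network d) (k : (Fin d → ℕ) × (Fin d → ℕ) → ℝ) (c : Fin d → ℝ) (t₀ Y : ℝ)
    (A : Finset ((Fin d → ℝ) × (ℝ → ℝ))), (∀ i, 0 < c i) → BSys R k c t₀ Y A →
    ∀ τ₀ : ℝ, 0 < τ₀ → τ₀ ≤ t₀ → ∃ ε : ℝ, 0 < ε ∧
      ∀ F : (Fin d → ℝ) → (Fin d → ℝ),
        (∀ t, τ₀ ≤ t → t ≤ t₀ → ∀ x ∈ KK A t, F x = field R k x) →
        (∀ x, F x ∈ stoichSubspace R) →
        ∀ x : ℝ → (Fin d → ℝ), IsForwardSolution F x → x 0 ∈ KK A τ₀ →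
          x 0 - c ∈ stoichSubspace R →
          ∀ s, 0 ≤ s → τ₀ + ε * s ≤ t₀ → x s ∈ KK A (τ₀ + ε * s)

end Crest.Agent.R92
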