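import Crest.Agent.R92.Defs

set_option autoImplicit false
open Finset Filter Topology

namespace Crest.Agent.R92

open Crest.AnalysisR.MassAction

variable {d : ℕ}

lemma continuous_ip (a : Fin d → ℝ) : Continuous (ip a) := by
  unfold ip
  fun_prop

lemma isClosed_KK (A : Finset ((Fin d → ℝ) × (ℝ → ℝ))) (t : ℝ) : IsClosed (KK A t) := by
  have : KK A t = ⋂ p ∈ A, {x | p.2 t ≤ ip p.1 x} := by
    ext x; simp [KK]
  rw [this]
  exact isClosed_biInter fun p _ => isClosed_le continuous_const (continuous_ip p.1)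

lemma ip_add_smul (a x y : Fin d → ℝ) (α β : ℝ) :
    ip a (α • x + β • y) = α * ip a x + β * ip a y := by
  unfold ip
  simp only [Pi.add_apply, Pi.smul_apply, smul_eq_mul]
  rw [Finset.mul_sum, Finset.mul_sum, ← Finset.sum_add_distrib]
  exact Finset.sum_congr rfl fun i _ => by ring

lemma convex_KK (A : Finset ((Fin d → ℝ) × (ℝ → ℝ))) (t : ℝ) : Convex ℝ (KK A t) := by
  intro x hx y hy α β hα hβ hab p hp
  rw [ip_add_smul]
  have h1 := mul_le_mul_of_nonneg_left (hx p hp) hα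
  have h2 := mul_le_mul_of_nonneg_left (hy p hp) hβ
  have h3 : p.2 t = α * p.2 t + β * p.2 t := by rw [← add_mul, hab, one_mul]
  linarith

lemma field_mem (R : Network d) (k : (Fin d → ℕ) × (Fin d → ℕ) → ℝ) (x : Fin d → ℝ) :
    field R k x ∈ stoichSubspace R := by
  unfold field stoichSubspace
  refine Submodule.sum_mem _ fun r hr => Submodule.smul_mem _ _ (Submodule.subset_span ?_)
  exact ⟨r, hr, rfl⟩

lemma clampv_eq {l u : ℝ} {x : Fin d → ℝ} (h : ∀ i, l ≤ x i ∧ x i ≤ u) : clampv l u x = x := by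
  funext i
  simp only [clampv]
  rw [min_eq_right (h i).2, max_eq_right (h i).1]

lemma shift_forward {F : (Fin d → ℝ) → (Fin d → ℝ)} {x : ℝ → (Fin d → ℝ)}
    (h : IsForwardSolution F x) {T : ℝ} (hT : 0 ≤ T) :
    IsForwardSolution F (fun s => x (T + s)) := by
  intro t ht
  have h1 := h (T + t) (by linarith)
  have h2 : HasDerivWithinAt (fun s : ℝ => T + s) 1 (Set.Ici 0) t := by
    simpa using (hasDerivWithinAt_id t (Set.Ici 0)).const_add T
  have h3 := h1.scomp t h2 (fun s hs => by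
    simp only [Set.mem_Ici] at hs ⊢; linarith)
  rw [one_smul] at h3
  exact h3

theorem F (hB : StB) (hO2 : StO2) (hO3 : StO3) (hO4 : StO4) (hV0 : StV0) (hV1 : StV1)
    (d : ℕ) (R : Network d) (hR : IsWeaklyReversible R)
    (k : (Fin d → ℕ) × (Fin d → ℕ) → ℝ) (hk : ∀ r ∈ R, 0 < k r)
    (c : Fin d → ℝ) (hc : ∀ i, 0 < c i) :
    ∃ K : Set (Fin d → ℝ), K ⊆ positiveClass R c ∧ K.Nonempty ∧ IsCompact K ∧ Convex ℝ K ∧
      (∀ x : ℝ → (Fin d → ℝ), IsForwardSolution (field R k) x → x 0 ∈ K →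
        ∀ t : ℝ, 0 ≤ t → x t ∈ K) ∧
      (∀ x₀ ∈ positiveClass R c,
        (∃ x : ℝ → (Fin d → ℝ), IsForwardSolution (field R k) x ∧ x 0 = x₀) ∧
        (∀ x x' : ℝ → (Fin d → ℝ), IsForwardSolution (field R k) x →
          IsForwardSolution (field R k) x' → x 0 = x₀ → x' 0 = x₀ →
          ∀ t : ℝ, 0 ≤ t → x t = x' t) ∧
        (∀ x : ℝ → (Fin d → ℝ), IsForwardSolution (field R k) x → x 0 = x₀ →
          (∀ t : ℝ, 0 ≤ t → ∀ i, 0 < x t i) ∧
          ∃ T : ℝ, 0 ≤ T ∧ ∀ t : ℝ, T ≤ t → x t ∈ K)) := by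
  obtain ⟨t₀, Y, A, hS⟩ := hB d R hR k hk c hc
  have ht0 := hS.t0pos
  have ht1 := hS.t0lt
  have hbd := hS.geo.1
  have hpos : ∀ t, 0 < t → t ≤ t₀ → ∀ x ∈ KK A t, ∀ i, 0 < x i := fun t h0 h1 x hx i =>
    lt_of_lt_of_le (Real.rpow_pos_of_pos h0 Y) (hbd t h0 (lt_of_le_of_lt h1 ht1) x hx i).1
  refine ⟨KK A t₀ ∩ {x | x - c ∈ stoichSubspace R}, ?_, ?_, ?_, ?_, ?_, ?_⟩
  · rintro x ⟨hx, hxS⟩
    exact ⟨hpos t₀ ht0 le_rfl x hx, hxS⟩
  · exact ⟨c, hS.cmem t₀ ht0 le_rfl, by simp⟩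
  · refine IsCompact.of_isClosed_subset
      (isCompact_Icc (a := (fun _ => (0:ℝ) : Fin d → ℝ)) (b := fun _ => t₀⁻¹)) ?_ ?_
    · refine (isClosed_KK A t₀).inter ?_
      have h1 : IsClosed ((stoichSubspace R : Submodule ℝ (Fin d → ℝ)) : Set (Fin d → ℝ)) :=
        Submodule.closed_of_finiteDimensional _
      exact h1.preimage (continuous_id.sub continuous_const)
    · rintro x ⟨hx, _⟩
      exact ⟨fun i => (hpos t₀ ht0 le_rfl x hx i).le, fun i => (hbd t₀ ht0 ht1 x hx i).2⟩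
  · refine (convex_KK A t₀).inter ?_
    intro x hx y hy α β hα hβ hab
    simp only [Set.mem_ofPred_eq] at hx hy ⊢
    have : α • x + β • y - c = α • (x - c) + β • (y - c) := by
      rw [smul_sub, smul_sub]
      have : c = α • c + β • c := by rw [← add_smul, hab, one_smul]
      nth_rewrite 1 [this]
      abel
    rw [this]
    exact Submodule.add_mem _ (Submodule.smul_mem _ _ hx) (Submodule.smul_mem _ _ hy)
  · intro x hx hx0 t ht
    exact hV0 d R k c t₀ Y A hc hS (field R k) (fun _ _ => rfl) (field_mem R k) x hx hx0.1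
      hx0.2 t ht
  · intro x₀ hx₀
    obtain ⟨hx₀p, hx₀S⟩ := hx₀
    obtain ⟨t1, ht1p, hx₀K⟩ := hS.geo.2.1 x₀ hx₀p
    set τ₀ := min t1 t₀ with hτ
    have hτ0 : 0 < τ₀ := lt_min ht1p ht0
    have hτt : τ₀ ≤ t₀ := min_le_right _ _
    have hτ1 : τ₀ < 1 := lt_of_le_of_lt hτt ht1
    have hx₀τ : x₀ ∈ KK A τ₀ := hx₀K τ₀ hτ0 (min_le_left _ _)
    set l := τ₀ ^ |Y| with hl
    have hl0 : 0 < l := Real.rpow_pos_of_pos hτ0 _
    have hlu : l ≤ τ₀⁻¹ := by
      have h1 : l ≤ 1 := Real.rpow_le_one hτ0.le hτ1.le (abs_nonneg _)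
      have h2 : 1 ≤ τ₀⁻¹ := (one_le_inv₀ hτ0).2 hτ1.le
      exact h1.trans h2
    have hbox : ∀ t, τ₀ ≤ t → t ≤ t₀ → ∀ x ∈ KK A t, ∀ i, l ≤ x i ∧ x i ≤ τ₀⁻¹ := by
      intro t h1 h2 x hx i
      have htp : 0 < t := lt_of_lt_of_le hτ0 h1
      have htl : t < 1 := lt_of_le_of_lt h2 ht1
      obtain ⟨h3, h4⟩ := hbd t htp htl x hx i
      constructor
      · refine le_trans ?_ h3
        refine (Real.rpow_le_rpow hτ0.le h1 (abs_nonneg _)).trans ?_
        exact Real.rpow_le_rpow_of_exponent_ge htp htl.le (le_abs_self Y)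
      · exact h4.trans (inv_anti₀ hτ0 h1)
    have hFeq : ∀ t, τ₀ ≤ t → t ≤ t₀ → ∀ x ∈ KK A t,
        (fun z => field R k (clampv l τ₀⁻¹ z)) x = field R k x := by
      intro t h1 h2 x hx
      simp only
      rw [clampv_eq (hbox t h1 h2 x hx)]
    obtain ⟨z, hz0, hz⟩ := hO4 d R k l τ₀⁻¹ hl0 hlu x₀
    obtain ⟨ε, hε, hV⟩ := hV1 d R k c t₀ Y A hc hS τ₀ hτ0 hτt
    have hmv := hV _ hFeq (fun x => field_mem R k _) z hz (by rw [hz0]; exact hx₀τ)
      (by rw [hz0]; exact hx₀S)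
    set T := (t₀ - τ₀) / ε with hT
    have hT0 : 0 ≤ T := div_nonneg (sub_nonneg.2 hτt) hε.le
    have hεT : τ₀ + ε * T = t₀ := by rw [hT]; field_simp; ring
    have hclass : ∀ s, 0 ≤ s → z s - c ∈ stoichSubspace R := by
      intro s hs
      have h1 := hO2 d (stoichSubspace R) z _ hz (fun t _ => field_mem R k _) s hs
      have h2 : z s - c = (z s - z 0) + (z 0 - c) := by abel
      rw [h2]
      exact Submodule.add_mem _ h1 (by rw [hz0]; exact hx₀S)
    have hafter : ∀ s, 0 ≤ s → z (T + s) ∈ KK A t₀ := by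
      intro s hs
      refine (hV0 d R k c t₀ Y A hc hS _ (hFeq t₀ hτt le_rfl) (fun x => field_mem R k _)
        (fun s => z (T + s)) (shift_forward hz hT0) ?_ ?_ s hs).1
      · have := hmv T hT0 hεT.le
        rw [hεT] at this
        simpa using this
      · exact hclass _ (by linarith)
    have hin : ∀ s, 0 ≤ s → ∃ t, τ₀ ≤ t ∧ t ≤ t₀ ∧ z s ∈ KK A t := by
      intro s hs
      rcases le_total s T with h | h
      · have h1 : τ₀ + ε * s ≤ t₀ := by
          have := mul_le_mul_of_nonneg_left h hε.le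
          linarith
        exact ⟨τ₀ + ε * s, by nlinarith, h1, hmv s hs h1⟩
      · refine ⟨t₀, hτt, le_rfl, ?_⟩
        have := hafter (s - T) (by linarith)
        rwa [add_sub_cancel] at this
    have hzsol : IsForwardSolution (field R k) z := by
      intro s hs
      obtain ⟨t, h1, h2, h3⟩ := hin s hs
      have := hz s hs
      rwa [hFeq t h1 h2 _ h3] at this
    refine ⟨⟨z, hzsol, hz0⟩, ?_, ?_⟩
    · intro x x' hx hx' h0 h0' t ht
      exact hO3 d R k x x' hx hx' (by rw [h0, h0']) t ht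
    · intro x hx h0
      have heq := hO3 d R k x z hx hzsol (by rw [h0, hz0])
      refine ⟨?_, T, hT0, ?_⟩
      · intro t ht i
        rw [heq t ht]
        obtain ⟨t', h1, h2, h3⟩ := hin t ht
        exact hpos t' (lt_of_lt_of_le hτ0 h1) h2 _ h3 i
      · intro t ht
        have ht0' : 0 ≤ t := hT0.trans ht
        rw [heq t ht0']
        refine ⟨?_, hclass t ht0'⟩
        have := hafter (t - T) (by linarith)
        rwa [add_sub_cancel] at this

end Crest.Agent.R92
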