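import Crest.Agent.R92.L

set_option autoImplicit false
open Finset Filter Topology

namespace Crest.Agent.R92

variable {d : ℕ}

/-- error after `k` ties -/
noncomputable def te (C : ℝ) : ℕ → ℝ → ℝ
  | 0, e => e
  | k + 1, e => te C k (om C (k + 1) e)

lemma exists_BdF (W : Finset (Fin d → ℤ)) : ∃ C, BdF W C := by
  refine ⟨1 + ∑ h ∈ Fam W d, ∑ i, |(h i : ℝ)|, ?_, fun h hh => ?_⟩
  · have : 0 ≤ ∑ h ∈ Fam W d, ∑ i, |(h i : ℝ)| := by positivity
    linarith
  · have := Finset.single_le_sum (f := fun h : Fin d → ℤ => ∑ i, |(h i : ℝ)|)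
      (fun g _ => by positivity) hh
    linarith

lemma LogSeq.le_of_ge {t : ℕ → ℝ} {x : ℕ → Fin d → ℝ} {y : Fin d → ℝ} (h : LogSeq t x y)
    {i : Fin d} {b : ℝ} (hx : ∀ m, t m ^ b ≤ x m i) : y i ≤ b := by
  refine le_of_tendsto' (h.ylim i) fun m => ?_
  have hl := h.log_neg m
  have ht := (h.t01 m).1
  rw [div_le_iff_of_neg hl]
  have := Real.log_le_log (Real.rpow_pos_of_pos ht _) (hx m)
  rwa [Real.log_rpow ht] at this

lemma tie_down {W : Finset (Fin d → ℤ)} {C Y : ℝ} {M : St d → Mk}
    (hM : Good W C Y M) {v : Fin d → ℝ} {n : ℝ} {i : Fin d} :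
    ∀ (k : ℕ) (P : Finset (Fin d)) (e : ℝ), P.card = k → i ∈ P → Valid W C v n P e →
      n + te C k e < Y → ∃ s : ℝ, 0 < s ∧ ∃ E : ℝ → ℝ, (∀ t, E t = s * t ^ (n + te C k e)) ∧
        Path M v n P e (bump v {i} s) E := by
  intro k
  induction k with
  | zero =>
    intro P e hk hi
    rw [Finset.card_eq_zero] at hk
    simp [hk] at hi
  | succ k ih =>
    intro P e hk hi hV hY
    rcases Nat.eq_zero_or_pos k with hk0 | hk0
    · subst hk0
      obtain ⟨i', rfl⟩ := Finset.card_eq_one.1 hk
      rw [Finset.mem_singleton] at hi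
      subst hi
      have hi : i ∈ ({i} : Finset (Fin d)) := Finset.mem_singleton_self i
      have hG := hM v n {i} e hV ⟨i, hi⟩
      have hb0 := hG.b0
      simp only [Finset.card_singleton] at hb0
      have hte : te C (0 + 1) e = om C 1 e := rfl
      rw [hte] at hY ⊢
      have hK : 1 ≤ (M ⟨v, n, {i}, e⟩).K := by
        by_contra hK
        have hK0 : (M ⟨v, n, {i}, e⟩).K = 0 := by omega
        have := hG.bK
        rw [hK0, hb0] at this
        linarith
      refine ⟨(M ⟨v, n, {i}, e⟩).s 1, hG.s_pos 1 le_rfl hK,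
        (fun t => (({i} : Finset (Fin d)).card : ℝ) * epsf (M ⟨v, n, {i}, e⟩) 1 t + (fun _ => 0) t),
        ?_, ?_⟩
      swap
      · refine Path.cons v n {i} e i 1 _ (fun _ => 0) hi hK ?_
        have : ({i} : Finset (Fin d)).erase i = ∅ := by simp
        rw [this]
        exact Path.nil _ _ _
      · intro t
        simp only [Finset.card_singleton, Nat.cast_one, one_mul, add_zero, epsf,
          Finset.sum_range_one, hG.s0, hb0, zero_add, sub_zero]
    · have hne : ∃ q ∈ P, q ≠ i := by
        by_contra hcon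
        push Not at hcon
        have : P.card ≤ 1 := Finset.card_le_one.2 fun a ha b hb => by rw [hcon a ha, hcon b hb]
        omega
      obtain ⟨q, hq, hqi⟩ := hne
      have hc : (P.erase q).card = k := by rw [Finset.card_erase_of_mem hq]; omega
      have hV' := valid_tie hM hV hq
      rw [hk] at hV'
      obtain ⟨s, hs, E, hE, hp⟩ := ih (P.erase q) (om C (k + 1) e) hc
        (Finset.mem_erase.2 ⟨hqi.symm, hi⟩) hV' hY
      refine ⟨s, hs, E, hE, path_tie hM hV hq ?_⟩
      rw [hk]; exact hp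

lemma hv_const_neg_one (h : Fin d → ℤ) :
    hv h (fun _ => (-1 : ℝ)) = 0 ∨ 1 ≤ |hv h (fun _ => (-1 : ℝ))| := by
  have h1 : hv h (fun _ => (-1 : ℝ)) = ((-(∑ i, h i) : ℤ) : ℝ) := by
    simp [hv]
  rw [h1]
  by_cases h0 : (-(∑ i, h i) : ℤ) = 0
  · left; rw [h0]; simp
  · right
    have := Int.one_le_abs h0
    rw [← Int.cast_abs]
    exact_mod_cast this

theorem G (hC1 : StC1) (hPP : StP) (hPF : StPF) (hPC : StPC) (hSL : StL) : StG := by
  intro d W
  obtain ⟨C, hB⟩ := exists_BdF W
  have hC := hB.1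
  set Y : ℝ := te C d 1 + 1 with hY
  obtain ⟨M, hM⟩ := hC1 d W C Y hB
  have hRd : 0 < RR C d := by have := RR_ge_two hC d; linarith
  -- the roots
  have hVlow : Valid W C (fun _ => (0:ℝ)) 0 (Finset.univ : Finset (Fin d)) 1 := by
    refine ⟨fun _ _ => rfl, one_pos, fun h _ => Or.inl ?_⟩
    simp [hv]
  have hVup : Valid W C (fun _ => (-1:ℝ)) (-1) (Finset.univ : Finset (Fin d)) (1 / RR C d) := by
    refine ⟨fun _ _ => rfl, by positivity, fun h _ => ?_⟩
    rw [Finset.card_univ, Fintype.card_fin, mul_one_div_cancel hRd.ne']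
    exact hv_const_neg_one h
  have hcd : (Finset.univ : Finset (Fin d)).card = d := by simp
  classical
  set f : (Fin d → ℝ) × (ℝ → ℝ) → (Fin d → ℝ) × (ℝ → ℝ) :=
    fun p => (p.1, fun t => -t⁻¹ + p.2 t) with hf
  set A : Finset ((Fin d → ℝ) × (ℝ → ℝ)) :=
    (hPF d M (fun _ => 0) 0 Finset.univ 1).toFinset ∪
      ((hPF d M (fun _ => -1) (-1) Finset.univ (1 / RR C d)).toFinset).image f with hA
  have memlow : ∀ a E, Path M (fun _ => 0) 0 Finset.univ 1 a E → (a, E) ∈ A := by
    intro a E h
    rw [hA, Finset.mem_union]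
    left
    simpa using h
  have memup : ∀ a E, Path M (fun _ => -1) (-1) Finset.univ (1 / RR C d) a E →
      (a, fun t => -t⁻¹ + E t) ∈ A := by
    intro a E h
    rw [hA, Finset.mem_union]
    right
    rw [Finset.mem_image]
    exact ⟨(a, E), by simpa using h, rfl⟩
  have mem_cases : ∀ p ∈ A, (Path M (fun _ => 0) 0 Finset.univ 1 p.1 p.2) ∨
      ∃ E, Path M (fun _ => -1) (-1) Finset.univ (1 / RR C d) p.1 E ∧
        p.2 = fun t => -t⁻¹ + E t := by
    intro p hp
    rw [hA, Finset.mem_union] at hp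
    rcases hp with hp | hp
    · left; simpa using hp
    · right
      rw [Finset.mem_image] at hp
      obtain ⟨p', hp', rfl⟩ := hp
      exact ⟨p'.2, by simpa using hp', rfl⟩
  -- bounds
  have hbound : ∀ t, 0 < t → t < 1 → ∀ x ∈ KK A t, ∀ i, t ^ Y ≤ x i ∧ x i ≤ t⁻¹ := by
    intro t t0 t1 x hx
    have hlow : ∀ i, t ^ Y ≤ x i := by
      intro i
      obtain ⟨s, hs, E, hE, hp⟩ := tie_down hM (i := i) d Finset.univ 1 hcd (Finset.mem_univ i)
        hVlow (by rw [zero_add, hY]; linarith)
      have h1 := hx _ (memlow _ _ hp)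
      simp only at h1
      rw [hE, zero_add] at h1
      have h2 : ip (bump (fun _ => (0:ℝ)) {i} s) x = s * x i := by
        unfold ip bump
        simp
      rw [h2] at h1
      have h3 : t ^ (te C d 1) ≤ x i := le_of_mul_le_mul_left h1 hs
      refine le_trans ?_ h3
      exact Real.rpow_le_rpow_of_exponent_ge t0 t1.le (by rw [hY]; linarith)
    intro i
    refine ⟨hlow i, ?_⟩
    have h1 := hx _ (memup _ _ (hPC d W C Y M hM _ _ _ _ hVup))
    simp only [ip, add_zero] at h1
    have h2 : x i ≤ ∑ j, x j :=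
      Finset.single_le_sum (f := x)
        (fun j _ => (Real.rpow_pos_of_pos t0 Y).le.trans (hlow j)) (Finset.mem_univ i)
    have h3 : ∑ j : Fin d, (-1 : ℝ) * x j = -∑ j, x j := by
      rw [← Finset.mul_sum]; ring
    rw [h3] at h1
    linarith
  refine ⟨Y, A, ⟨hbound, ?_, ?_⟩, ?_⟩
  · -- (ii)
    intro x hx
    suffices h : ∀ᶠ t in 𝓝[>] (0:ℝ), x ∈ KK A t by
      obtain ⟨u, hu, hsub⟩ := (mem_nhdsGT_iff_exists_Ioc_subset).1 h
      exact ⟨u, hu, fun t h0 h1 => hsub ⟨h0, h1⟩⟩
    have hlt1 : ∀ᶠ t in 𝓝[>] (0:ℝ), t < 1 :=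
      mem_nhdsWithin_of_mem_nhds (Iio_mem_nhds one_pos)
    have hgt0 : ∀ᶠ t in 𝓝[>] (0:ℝ), 0 < t := self_mem_nhdsWithin
    have hrp : ∀ b : ℝ, 0 < b → Tendsto (fun t : ℝ => t ^ b) (𝓝[>] 0) (𝓝 0) := by
      intro b hb
      have h := (Real.continuousAt_rpow_const 0 b (Or.inr hb.le)).tendsto
      rw [Real.zero_rpow hb.ne'] at h
      exact h.mono_left nhdsWithin_le_nhds
    have key : ∀ p ∈ A, ∀ᶠ t in 𝓝[>] (0:ℝ), p.2 t ≤ ip p.1 x := by
      intro p hp
      rcases mem_cases p hp with hp | ⟨E, hp, hE⟩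
      · obtain ⟨_, i2, i3, _⟩ := hPP d W C Y M hC hM _ _ _ _ _ _ hVlow hp
        have hsm : ∀ᶠ t in 𝓝[>] (0:ℝ), ∀ i, t ^ ((0:ℝ) + om C (Finset.univ : Finset (Fin d)).card 1)
            ≤ x i := by
          rw [eventually_all]
          intro i
          have := (hrp (0 + om C (Finset.univ : Finset (Fin d)).card 1)
            (by rw [zero_add]; exact om_pos hC _ one_pos)).eventually (gt_mem_nhds (hx i))
          filter_upwards [this] with t ht using ht.le
        filter_upwards [hsm, hlt1, hgt0] with t h1 h2 h3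
        refine ((i3 t h3 h2).2).trans ?_
        rw [Finset.sum_mul]
        unfold ip
        refine Finset.sum_le_sum fun i _ => ?_
        have h4 := i2 i (Finset.mem_univ i)
        rw [sub_zero]
        exact mul_le_mul_of_nonneg_left (h1 i) h4
      · obtain ⟨_, i2, i3, _⟩ := hPP d W C Y M hC hM _ _ _ _ _ _ hVup hp
        set G' := ∑ i, (p.1 i - (-1)) with hG'
        set o := om C (Finset.univ : Finset (Fin d)).card (1 / RR C d) with ho
        have ho0 : 0 < o := om_pos hC _ (by positivity)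
        have hlim : Tendsto (fun t : ℝ => G' * t ^ o - t * ip p.1 x) (𝓝[>] 0)
            (𝓝 (G' * 0 - 0 * ip p.1 x)) := by
          refine ((hrp o ho0).const_mul G').sub (Tendsto.mul_const _ ?_)
          exact tendsto_id.mono_left nhdsWithin_le_nhds
        have hev := hlim.eventually (gt_mem_nhds (show G' * 0 - 0 * ip p.1 x < 1 by simp))
        filter_upwards [hev, hlt1, hgt0] with t h1 h2 h3
        rw [hE]
        have h4 := (i3 t h3 h2).2
        rw [Real.rpow_add h3, Real.rpow_neg_one] at h4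
        have h5 : t * (-t⁻¹ + E t) ≤ t * ip p.1 x := by
          have h6 : t * E t ≤ G' * t ^ o := by
            have := mul_le_mul_of_nonneg_left h4 h3.le
            refine this.trans (le_of_eq ?_)
            rw [hG']
            field_simp
          have h7 : t * -t⁻¹ = -1 := by field_simp
          rw [mul_add, h7]
          linarith
        exact le_of_mul_le_mul_left h5 h3
    have := (Filter.eventually_all_finset A).2 key
    filter_upwards [this] with t ht
    exact fun p hp => ht p hp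
  · -- (iii)
    intro p hp
    rcases mem_cases p hp with hp | ⟨E, hp, hE⟩
    · exact (hPP d W C Y M hC hM _ _ _ _ _ _ hVlow hp).2.2.2
    · rw [hE]
      refine ContDiffOn.add ?_ (hPP d W C Y M hC hM _ _ _ _ _ _ hVup hp).2.2.2
      exact (contDiffOn_id.inv (fun t ht => ne_of_gt ht)).neg
  · -- (iv)
    intro p hp t x y hL hK hact h hh hpos
    have hylow : ∀ i, -1 ≤ y i := by
      intro i
      refine hL.le_of_le (c := 1) one_pos fun m => ?_
      rw [one_mul, Real.rpow_neg_one]
      exact (hbound (t m) (hL.t01 m).1 (hL.t01 m).2 (x m) (hK m) i).2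
    have hyup : ∀ i, y i ≤ Y := by
      intro i
      exact hL.le_of_ge fun m => (hbound (t m) (hL.t01 m).1 (hL.t01 m).2 (x m) (hK m) i).1
    rcases mem_cases p hp with hp | ⟨E, hp, hE⟩
    · refine hSL d W C Y M hB hM _ _ _ _ p.1 p.2 t x y hVlow hp hL ?_ ?_ ?_ ?_ h hh hpos
      · intro a' E' hp' m
        have h1 := hK m _ (memlow a' E' hp')
        simp only at h1
        rw [hact m]
        linarith
      · intro i hi; exact absurd (Finset.mem_univ i) hi
      · intro i _; have := hylow i; linarith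
      · intro i _; exact hyup i
    · refine hSL d W C Y M hB hM _ _ _ _ p.1 E t x y hVup hp hL ?_ ?_ ?_ ?_ h hh hpos
      · intro a' E' hp' m
        have h1 := hK m _ (memup a' E' hp')
        simp only at h1
        have h2 := hact m
        rw [hE] at h2
        simp only at h2
        rw [h2]
        linarith
      · intro i hi; exact absurd (Finset.mem_univ i) hi
      · intro i _
        have := hylow i
        have h2 : 0 < 1 / RR C d := by positivity
        linarith
      · intro i _; exact hyup i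

end Crest.Agent.R92
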