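import Crest.Agent.R92.PS

set_option autoImplicit false
open Finset Filter Topology

namespace Crest.Agent.R92

variable {d : ℕ}

lemma Fam_mono (W : Finset (Fin d → ℤ)) {k l : ℕ} (h : k ≤ l) : Fam W k ⊆ Fam W l := by
  induction l, h using Nat.le_induction with
  | base => exact fun _ h => h
  | succ n hn ih => exact ih.trans (by intro x hx; simp only [Fam]; exact Finset.mem_union_left _ hx)

lemma BdF.bd {W : Finset (Fin d → ℤ)} {C : ℝ} (h : BdF W C) {k : ℕ} (hk : k ≤ d)
    {g : Fin d → ℤ} (hg : g ∈ Fam W k) : ∑ i, |(g i : ℝ)| ≤ C :=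
  h.2 g (Fam_mono W hk hg)

lemma hv_sub_abs_le (h : Fin d → ℤ) (y v : Fin d → ℝ) (e : ℝ) (hy : ∀ i, |y i - v i| ≤ e) :
    |hv h y - hv h v| ≤ (∑ i, |(h i : ℝ)|) * e := by
  unfold hv
  rw [← Finset.sum_sub_distrib, Finset.sum_mul]
  refine (Finset.abs_sum_le_sum_abs _ _).trans (Finset.sum_le_sum fun i _ => ?_)
  rw [← mul_sub, abs_mul]
  exact mul_le_mul_of_nonneg_left (hy i) (abs_nonneg _)

lemma LogSeq.log_neg {t : ℕ → ℝ} {x : ℕ → Fin d → ℝ} {y : Fin d → ℝ} (h : LogSeq t x y)
    (m : ℕ) : Real.log (t m) < 0 := Real.log_neg (h.t01 m).1 (h.t01 m).2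

lemma LogSeq.log_atBot {t : ℕ → ℝ} {x : ℕ → Fin d → ℝ} {y : Fin d → ℝ} (h : LogSeq t x y) :
    Tendsto (fun m => Real.log (t m)) atTop atBot := by
  refine Real.tendsto_log_nhdsGT_zero.comp ?_
  rw [tendsto_nhdsWithin_iff]
  exact ⟨h.tlim, Eventually.of_forall fun m => (h.t01 m).1⟩

lemma LogSeq.le_of_le {t : ℕ → ℝ} {x : ℕ → Fin d → ℝ} {y : Fin d → ℝ} (h : LogSeq t x y)
    {i : Fin d} {c b : ℝ} (hc : 0 < c) (hx : ∀ m, x m i ≤ c * t m ^ b) : b ≤ y i := by
  have h1 : Tendsto (fun m => Real.log c / Real.log (t m) + b) atTop (𝓝 (0 + b)) :=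
    (Tendsto.div_atBot tendsto_const_nhds h.log_atBot).add tendsto_const_nhds
  rw [zero_add] at h1
  refine le_of_tendsto_of_tendsto' h1 (h.ylim i) fun m => ?_
  have hl := h.log_neg m
  have ht := (h.t01 m).1
  rw [le_div_iff_of_neg hl, add_mul, div_mul_cancel₀ _ hl.ne]
  have := Real.log_le_log (h.xpos m i) (hx m)
  rwa [Real.log_mul hc.ne' (Real.rpow_pos_of_pos ht _).ne', Real.log_rpow ht] at this

lemma LogSeq.tendsto_div {t : ℕ → ℝ} {x : ℕ → Fin d → ℝ} {y : Fin d → ℝ} (h : LogSeq t x y)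
    {i : Fin d} {b : ℝ} (hb : b < y i) :
    Tendsto (fun m => x m i / t m ^ b) atTop (𝓝 0) := by
  have h1 : Tendsto (fun m => Real.log (t m) * (Real.log (x m i) / Real.log (t m) - b)) atTop
      atBot :=
    h.log_atBot.atBot_mul_pos (sub_pos.2 hb) ((h.ylim i).sub tendsto_const_nhds)
  have h2 := Real.tendsto_exp_atBot.comp h1
  refine h2.congr fun m => ?_
  have hl := h.log_neg m
  have ht := (h.t01 m).1
  simp only [Function.comp]
  rw [mul_sub, mul_div_cancel₀ _ hl.ne, Real.exp_sub, Real.exp_log (h.xpos m i),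
    Real.rpow_def_of_pos ht]

lemma LogSeq.tendsto_rpow {t : ℕ → ℝ} {x : ℕ → Fin d → ℝ} {y : Fin d → ℝ} (h : LogSeq t x y)
    {b : ℝ} (hb : 0 < b) : Tendsto (fun m => t m ^ b) atTop (𝓝 0) := by
  have := h.tlim.rpow_const (p := b) (Or.inr hb.le)
  rwa [Real.zero_rpow hb.ne'] at this

lemma ip_diff {v a : Fin d → ℝ} {n s : ℝ} {P : Finset (Fin d)} (hv : ∀ i ∈ P, v i = n)
    (ha : ∀ i, i ∉ P → a i = v i) (x : Fin d → ℝ) :
    ip a x - ip (bump v P s) x = ∑ i ∈ P, (a i - (n + s)) * x i := by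
  unfold ip
  rw [← Finset.sum_sub_distrib, ← Finset.sum_subset (Finset.subset_univ P)]
  · apply Finset.sum_congr rfl
    intro i hi
    rw [bump_mem hi, hv i hi]; ring
  · intro i _ hi
    rw [bump_notMem hi, ha i hi]; ring

lemma sum_term_le {P : Finset (Fin d)} {w x : Fin d → ℝ} (hw : ∀ i ∈ P, 0 ≤ w i)
    (hx : ∀ i, 0 < x i) {i : Fin d} (hi : i ∈ P) : w i * x i ≤ ∑ j ∈ P, w j * x j :=
  Finset.single_le_sum (f := fun j => w j * x j)
    (fun j hj => mul_nonneg (hw j hj) (hx j).le) hi

/-- (T): coordinates raised above `n` are at least the tie bound. -/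
lemma T_step (hPP : StP) (hPC : StPC) {W : Finset (Fin d → ℤ)} {C Y : ℝ} {M : St d → Mk}
    (hC : 1 ≤ C) (hM : Good W C Y M) {v : Fin d → ℝ} {n : ℝ} {P : Finset (Fin d)} {e : ℝ}
    {a : Fin d → ℝ} {E : ℝ → ℝ} {t : ℕ → ℝ} {x : ℕ → Fin d → ℝ} {y : Fin d → ℝ}
    (hV : Valid W C v n P e) (hp : Path M v n P e a E) (hL : LogSeq t x y)
    (hopt : ∀ a' E', Path M v n P e a' E' →
      ∀ m, ip a (x m) - E (t m) ≤ ip a' (x m) - E' (t m))
    {i : Fin d} (hi : i ∈ P) (hai : n < a i) : n + om C P.card e ≤ y i := by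
  obtain ⟨i1, i2, i3, _⟩ := hPP d W C Y M hC hM v n P e a E hV hp
  have hG : 0 < ∑ i ∈ P, (a i - n) :=
    Finset.sum_pos' (fun j hj => sub_nonneg.2 (i2 j hj)) ⟨i, hi, sub_pos.2 hai⟩
  refine hL.le_of_le (c := (∑ i ∈ P, (a i - n)) / (a i - n))
    (div_pos hG (sub_pos.2 hai)) fun m => ?_
  have h1 := hopt v _ (hPC d W C Y M hM v n P e hV) m
  have h2 := ip_diff (s := 0) hV.1 i1 (x m)
  rw [bump_zero, add_zero] at h2
  have h3 := (i3 (t m) (hL.t01 m).1 (hL.t01 m).2).2
  have h4 := sum_term_le (P := P) (w := fun i => a i - n) (fun j hj => sub_nonneg.2 (i2 j hj))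
    (hL.xpos m) hi
  rw [div_mul_eq_mul_div, le_div_iff₀ (sub_pos.2 hai), mul_comm]
  linarith

lemma const_path (hPC : StPC) {W : Finset (Fin d → ℤ)} {C Y : ℝ} {M : St d → Mk}
    (hM : Good W C Y M) {v : Fin d → ℝ} {n : ℝ} {P : Finset (Fin d)} {e : ℝ}
    (hV : Valid W C v n P e) (hP : P.Nonempty) {j : ℕ} (hj : j ≤ (M ⟨v, n, P, e⟩).K) :
    Path M v n P e (bump v P ((M ⟨v, n, P, e⟩).s j))
      (fun t => (P.card : ℝ) * epsf (M ⟨v, n, P, e⟩) j t + 0) := by
  obtain ⟨q, hq⟩ := hP
  exact Path.cons v n P e q j _ (fun _ => 0) hq hj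
    (hPC d W C Y M hM _ _ _ _ (valid_sub hM hV hq hj))

theorem L (hPP : StP) (hPC : StPC) (hPS : StPS) : StL := by
  intro d W C Y M hB hM v n P e a E t x y hV hp hL hopt hoff hlow hup
  have hC := hB.1
  induction hk : P.card generalizing v n P e a E with
  | zero =>
    rw [Finset.card_eq_zero] at hk
    subst hk
    cases hp with
    | nil =>
      intro h hh hpos
      have h1 := hv_sub_abs_le h y v e (fun i => hoff i (by simp))
      have h2 := hB.bd (Nat.zero_le d) (show h ∈ Fam W 0 from hh)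
      have he := hV.2.1
      have h3 := hV.2.2 h hh
      simp only [Finset.card_empty, RR] at h3
      have h4 : 2 * C * e ≤ hv h v := by
        rcases h3 with h3 | h3
        · linarith
        · rwa [abs_of_pos hpos] at h3
      have h5 := mul_le_mul_of_nonneg_right h2 he.le
      have h6 := (abs_le.1 h1).1
      nlinarith
    | cons _ _ _ _ q j a E hq => simp at hq
  | succ k ih =>
    have hP : P.Nonempty := by rw [← Finset.card_pos]; omega
    cases hp with
    | nil => simp at hP
    | cons _ _ _ _ q j a E hq hj h =>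
      beta_reduce at hopt
      have hG := hM v n P e hV ⟨q, hq⟩
      have hsub := valid_sub hM hV hq hj
      obtain ⟨i1, i2, i3, _⟩ := hPP d W C Y M hC hM _ _ _ _ a E hsub h
      have hvP := hV.1
      have herr : 0 < (M ⟨v, n, P, e⟩).err j := hsub.2.1
      -- basic facts about `a`
      have haoff : ∀ i, i ∉ P → a i = v i := by
        intro i hi
        rw [i1 i (fun h' => hi (Finset.mem_of_mem_erase h')), bump_notMem hi]
      have haP : ∀ i ∈ P, n + (M ⟨v, n, P, e⟩).s j ≤ a i := by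
        intro i hi
        by_cases hiq : i = q
        · subst hiq
          rw [i1 i (by simp), bump_mem hi, hvP i hi]
        · exact i2 i (Finset.mem_erase.2 ⟨hiq, hi⟩)
      have hsum : ∑ i ∈ P.erase q, (a i - (n + (M ⟨v, n, P, e⟩).s j)) =
          ∑ i ∈ P, (a i - (n + (M ⟨v, n, P, e⟩).s j)) := by
        rw [← Finset.add_sum_erase P _ hq]
        have : a q = n + (M ⟨v, n, P, e⟩).s j := by
          rw [i1 q (by simp), bump_mem hq, hvP q hq]
        rw [this]; ring
      rw [hsum] at i3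
      set G := ∑ i ∈ P, (a i - (n + (M ⟨v, n, P, e⟩).s j)) with hGdef
      have hGnn : 0 ≤ G := Finset.sum_nonneg fun i hi => sub_nonneg.2 (haP i hi)
      set β := n + (M ⟨v, n, P, e⟩).s j + om C (P.erase q).card ((M ⟨v, n, P, e⟩).err j)
        with hβ
      have hβb : (M ⟨v, n, P, e⟩).b j < β := by
        have h1 := om_ge hC (P.erase q).card herr
        have h2 := hG.bs_err j hj
        simp only at h2
        rw [hβ]; linarith
      have hcard : (0:ℝ) < P.card := by exact_mod_cast hP.card_pos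
      -- (L)
      have hLow : ∀ j', j = j' + 1 → ∀ i ∈ P, (M ⟨v, n, P, e⟩).b j' ≤ y i := by
        intro j' hjj i hi
        subst hjj
        have hΔ : 0 < (M ⟨v, n, P, e⟩).s (j' + 1) - (M ⟨v, n, P, e⟩).s j' :=
          sub_pos.2 (hG.smono j' (by omega))
        set Δ := (M ⟨v, n, P, e⟩).s (j' + 1) - (M ⟨v, n, P, e⟩).s j' with hΔd
        have hbb : (M ⟨v, n, P, e⟩).b j' ≤ β := by
          have := (hG.bs j' (by omega)).trans (hG.sb (j' + 1) hj)
          linarith
        refine hL.le_of_le (c := (P.card * Δ + G) / Δ) (by positivity) fun m => ?_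
        have h1 := hopt _ _ (const_path hPC hM hV hP (j := j') (by omega)) m
        have h2 := ip_diff (s := (M ⟨v, n, P, e⟩).s j') hvP haoff (x m)
        have h3 := (i3 (t m) (hL.t01 m).1 (hL.t01 m).2).2
        have h4 := sum_term_le (P := P) (w := fun i => a i - (n + (M ⟨v, n, P, e⟩).s j'))
          (fun i hi => by have := haP i hi; linarith) (hL.xpos m) hi
        have h5 : Δ * x m i ≤ (a i - (n + (M ⟨v, n, P, e⟩).s j')) * x m i :=
          mul_le_mul_of_nonneg_right (by have := haP i hi; linarith) (hL.xpos m i).le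
        have h6 : t m ^ β ≤ t m ^ (M ⟨v, n, P, e⟩).b j' :=
          Real.rpow_le_rpow_of_exponent_ge (hL.t01 m).1 (hL.t01 m).2.le hbb
        have h7 := mul_le_mul_of_nonneg_left h6 hGnn
        rw [eps_succ] at h1
        rw [div_mul_eq_mul_div, le_div_iff₀ hΔ, mul_comm]
        nlinarith
      -- (U)
      have hUp : j < (M ⟨v, n, P, e⟩).K → ∃ i ∈ P, y i ≤ (M ⟨v, n, P, e⟩).b j := by
        intro hjK
        by_contra hcon
        push Not at hcon
        have hΔ : 0 < (M ⟨v, n, P, e⟩).s (j + 1) - (M ⟨v, n, P, e⟩).s j :=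
          sub_pos.2 (hG.smono j hjK)
        set Δ := (M ⟨v, n, P, e⟩).s (j + 1) - (M ⟨v, n, P, e⟩).s j with hΔd
        have hlim : Tendsto (fun m => G * t m ^ (β - (M ⟨v, n, P, e⟩).b j) +
            Δ * ∑ i ∈ P, x m i / t m ^ (M ⟨v, n, P, e⟩).b j) atTop
            (𝓝 (G * 0 + Δ * ∑ i ∈ P, 0)) := by
          refine Tendsto.add ?_ ?_
          · exact (hL.tendsto_rpow (sub_pos.2 hβb)).const_mul G
          · refine Tendsto.const_mul Δ (tendsto_finsetSum _ fun i hi => ?_)
            exact hL.tendsto_div (hcon i hi)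
        have hge : P.card * Δ ≤ G * 0 + Δ * ∑ i ∈ P, (0:ℝ) := by
          refine ge_of_tendsto' hlim fun m => ?_
          have h1 := hopt _ _ (const_path hPC hM hV hP (j := j + 1) (by omega)) m
          have h2 := ip_diff (s := (M ⟨v, n, P, e⟩).s (j + 1)) hvP haoff (x m)
          have h3 := (i3 (t m) (hL.t01 m).1 (hL.t01 m).2).2
          rw [eps_succ] at h1
          have htp := (hL.t01 m).1
          have hb := Real.rpow_pos_of_pos htp ((M ⟨v, n, P, e⟩).b j)
          have h4 : -(∑ i ∈ P, (a i - (n + (M ⟨v, n, P, e⟩).s (j + 1))) * x m i) ≤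
              Δ * ∑ i ∈ P, x m i := by
            rw [← Finset.sum_neg_distrib, Finset.mul_sum]
            refine Finset.sum_le_sum fun i hi => ?_
            rw [← neg_mul]
            refine mul_le_mul_of_nonneg_right ?_ (hL.xpos m i).le
            have := haP i hi
            linarith
          rw [Real.rpow_sub htp, ← Finset.sum_div, ← mul_div_assoc, ← mul_div_assoc,
            ← add_div, le_div_iff₀ hb]
          nlinarith
        simp only [mul_zero, Finset.sum_const_zero, add_zero] at hge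
        have : 0 < P.card * Δ := mul_pos hcard hΔ
        linarith
      -- the minimizer
      obtain ⟨i₀, hi₀, hmin⟩ := Finset.exists_min_image P y hP
      have hupi : y i₀ ≤ (M ⟨v, n, P, e⟩).b j := by
        rcases lt_or_eq_of_le hj with hlt | heq
        · obtain ⟨i, hi, hyi⟩ := hUp hlt
          exact (hmin i hi).trans hyi
        · have := hG.bK
          rw [← heq] at this
          exact (hup i₀ hi₀).trans this
      -- optimality of the sub path
      have hopt' : ∀ q' ∈ P, ∀ a' E', Path M (bump v P ((M ⟨v, n, P, e⟩).s j))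
          (n + (M ⟨v, n, P, e⟩).s j) (P.erase q') ((M ⟨v, n, P, e⟩).err j) a' E' →
          ∀ m, ip a (x m) - E (t m) ≤ ip a' (x m) - E' (t m) := by
        intro q' hq' a' E' hp' m
        have := hopt a' _ (Path.cons v n P e q' j a' E' hq' hj hp') m
        linarith
      have hai₀ : a i₀ = n + (M ⟨v, n, P, e⟩).s j := by
        by_contra hne
        have hlt : n + (M ⟨v, n, P, e⟩).s j < a i₀ := lt_of_le_of_ne (haP i₀ hi₀) (Ne.symm hne)
        have hiq : i₀ ≠ q := by
          intro hiq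
          apply hne
          rw [hiq, i1 q (by simp), bump_mem hq, hvP q hq]
        have := T_step hPP hPC hC hM hsub h hL (hopt' q hq) (Finset.mem_erase.2 ⟨hiq, hi₀⟩) hlt
        rw [← hβ] at this
        linarith
      have hVi := valid_sub hM hV hi₀ hj
      have hpath : Path M (bump v P ((M ⟨v, n, P, e⟩).s j)) (n + (M ⟨v, n, P, e⟩).s j)
          (P.erase i₀) ((M ⟨v, n, P, e⟩).err j) a E := by
        by_cases hiq : i₀ = q
        · rw [hiq]; exact h
        · have h1 := hPS d W C Y M hC hM _ _ _ _ a E i₀ hsub h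
            (Finset.mem_erase.2 ⟨hiq, hi₀⟩) hai₀
          refine path_tie hM hVi (Finset.mem_erase.2 ⟨fun h => hiq h.symm, hq⟩) ?_
          rw [Finset.erase_right_comm]
          have hc : (P.erase i₀).card = (P.erase q).card := by
            rw [Finset.card_erase_of_mem hi₀, Finset.card_erase_of_mem hq]
          rw [hc]
          exact h1
      have hlow0 : n + (M ⟨v, n, P, e⟩).s j - (M ⟨v, n, P, e⟩).err j ≤ y i₀ := by
        rcases Nat.eq_zero_or_pos j with hj0 | hj0
        · subst hj0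
          have h1 := hlow i₀ hi₀
          have h2 := hG.eerr 0 (Nat.zero_le _)
          simp only at h2
          rw [hG.s0]; linarith
        · obtain ⟨j', rfl⟩ : ∃ j', j = j' + 1 := ⟨j - 1, by omega⟩
          have h1 := hLow j' rfl i₀ hi₀
          have h2 := hG.sb_err j' (by omega)
          simp only at h2
          linarith
      have hupper0 : y i₀ ≤ n + (M ⟨v, n, P, e⟩).s j + (M ⟨v, n, P, e⟩).err j := by
        have h2 := hG.bs_err j hj
        simp only at h2
        linarith
      have hee : e ≤ (M ⟨v, n, P, e⟩).err j := hG.eerr j hj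
      refine ih _ _ _ _ a E hVi hpath (hopt' i₀ hi₀) ?_ ?_ ?_ ?_
      · intro i hi
        by_cases hii : i = i₀
        · subst hii
          rw [bump_mem hi₀, hvP i hi₀, abs_le]
          constructor <;> linarith
        · have hiP : i ∉ P := fun h' => hi (Finset.mem_erase.2 ⟨hii, h'⟩)
          rw [bump_notMem hiP]
          exact (hoff i hiP).trans hee
      · intro i hi
        have := hmin i (Finset.mem_of_mem_erase hi)
        linarith
      · intro i hi
        exact hup i (Finset.mem_of_mem_erase hi)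
      · rw [Finset.card_erase_of_mem hi₀]; omega

end Crest.Agent.R92
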