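import Crest.Agent.R92.Defs

/-! Row 92, task M1: marks on a line. -/

set_option autoImplicit false

namespace Crest.Agent.R92

namespace M1T

/-- the properties kept in the induction -/
structure Inv (ω e n : ℝ) (Z : Finset ℝ) (N : ℕ) (m : Mk) : Prop where
  s0 : m.s 0 = 0
  b0 : m.b 0 = n + ω
  err0 : m.err 0 = ω
  smono : ∀ j < m.K, m.s j < m.s (j + 1)
  sb : ∀ j ≤ m.K, n + m.s j < m.b j
  bs : ∀ j < m.K, m.b j < n + m.s (j + 1)
  eerr : ∀ j ≤ m.K, e ≤ m.err j
  bs_err : ∀ j ≤ m.K, m.b j - (n + m.s j) ≤ m.err j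
  sb_err : ∀ j < m.K, n + m.s (j + 1) - m.b j ≤ m.err (j + 1)
  last : ∀ j, 1 ≤ j → j ≤ m.K → (m.s j ∈ Z ∧ m.err j = ω) ∨
        (m.err j = e ∧ ω / 2 ≤ m.s j ∧ ∀ ζ ∈ Z, ω / 2 ≤ |m.s j - ζ|)
  big : n + ω + N * (e / 2) ≤ m.b m.K
  inv : ∀ ζ ∈ Z, ζ ≤ m.b m.K - n → ζ + ω ≤ m.b m.K - n

/-- extend the marks -/
def ext (m : Mk) (s b err : ℝ) : Mk where
  K := m.K + 1
  s := fun j => if j ≤ m.K then m.s j else s
  b := fun j => if j ≤ m.K then m.b j else b
  err := fun j => if j ≤ m.K then m.err j else err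

theorem step (ω e n : ℝ) (_he : 0 < e) (_heω : e ≤ ω) (Z : Finset ℝ) (N : ℕ) (m : Mk)
    (h : Inv ω e n Z N m) (s b err : ℝ) (h1 : m.b m.K < n + s) (h2 : n + s < b)
    (h3 : e ≤ err) (h4 : b - (n + s) ≤ err) (h5 : n + s - m.b m.K ≤ err)
    (h6 : (s ∈ Z ∧ err = ω) ∨ (err = e ∧ ω / 2 ≤ s ∧ ∀ ζ ∈ Z, ω / 2 ≤ |s - ζ|))
    (h7 : m.b m.K + e / 2 ≤ b) (h8 : ∀ ζ ∈ Z, ζ ≤ b - n → ζ + ω ≤ b - n) :
    Inv ω e n Z (N + 1) (ext m s b err) := by
  have hK : ¬ (m.K + 1 ≤ m.K) := by omega
  constructor
  · simp [ext, h.s0]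
  · simp [ext, h.b0]
  · simp [ext, h.err0]
  · intro j hj
    change j < m.K + 1 at hj
    rcases Nat.lt_or_ge j m.K with hj' | hj'
    · have e1 : j ≤ m.K := hj'.le
      have e2 : j + 1 ≤ m.K := hj'
      simp only [ext, e1, e2, if_true]
      exact h.smono j hj'
    · have : j = m.K := by omega
      subst this
      simp only [ext, le_refl, if_true, hK, if_false]
      have := h.sb m.K le_rfl
      linarith
  · intro j hj
    change j ≤ m.K + 1 at hj
    rcases Nat.lt_or_ge m.K j with hj' | hj'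
    · have : j = m.K + 1 := by omega
      subst this
      simp only [ext, hK, if_false]
      exact h2
    · simp only [ext, hj', if_true]
      exact h.sb j hj'
  · intro j hj
    change j < m.K + 1 at hj
    rcases Nat.lt_or_ge j m.K with hj' | hj'
    · have e1 : j ≤ m.K := hj'.le
      have e2 : j + 1 ≤ m.K := hj'
      simp only [ext, e1, e2, if_true]
      exact h.bs j hj'
    · have : j = m.K := by omega
      subst this
      simp only [ext, le_refl, if_true, hK, if_false]
      exact h1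
  · intro j hj
    change j ≤ m.K + 1 at hj
    rcases Nat.lt_or_ge m.K j with hj' | hj'
    · have : j = m.K + 1 := by omega
      subst this
      simp only [ext, hK, if_false]
      exact h3
    · simp only [ext, hj', if_true]
      exact h.eerr j hj'
  · intro j hj
    change j ≤ m.K + 1 at hj
    rcases Nat.lt_or_ge m.K j with hj' | hj'
    · have : j = m.K + 1 := by omega
      subst this
      simp only [ext, hK, if_false]
      exact h4
    · simp only [ext, hj', if_true]
      exact h.bs_err j hj'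
  · intro j hj
    change j < m.K + 1 at hj
    rcases Nat.lt_or_ge j m.K with hj' | hj'
    · have e1 : j ≤ m.K := hj'.le
      have e2 : j + 1 ≤ m.K := hj'
      simp only [ext, e1, e2, if_true]
      exact h.sb_err j hj'
    · have : j = m.K := by omega
      subst this
      simp only [ext, le_refl, if_true, hK, if_false]
      exact h5
  · intro j hj1 hj
    change j ≤ m.K + 1 at hj
    rcases Nat.lt_or_ge m.K j with hj' | hj'
    · have : j = m.K + 1 := by omega
      subst this
      simp only [ext, hK, if_false]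
      exact h6
    · simp only [ext, hj', if_true]
      exact h.last j hj1 hj'
  · have e1 : (ext m s b err).b (ext m s b err).K = b := by simp [ext]
    rw [e1]
    have := h.big
    push_cast
    linarith
  · have e1 : (ext m s b err).b (ext m s b err).K = b := by simp [ext]
    rw [e1]
    exact h8

theorem exists_inv (ω e n : ℝ) (he : 0 < e) (heω : e ≤ ω) (Z : Finset ℝ)
    (hZ : ∀ ζ ∈ Z, 3 * ω ≤ ζ)
    (hZ2 : ∀ ζ ∈ Z, ∀ ζ' ∈ Z, ζ ≠ ζ' → 3 * ω ≤ |ζ - ζ'|) (N : ℕ) :
    ∃ m : Mk, Inv ω e n Z N m := by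
  have hω : 0 < ω := he.trans_le heω
  induction N with
  | zero =>
    refine ⟨⟨0, fun _ => 0, fun _ => n + ω, fun _ => ω⟩, ?_⟩
    constructor
    · rfl
    · rfl
    · rfl
    · intro j hj; exact absurd hj (Nat.not_lt_zero j)
    · intro j _; change n + 0 < n + ω; linarith
    · intro j hj; exact absurd hj (Nat.not_lt_zero j)
    · intro j _; exact heω
    · intro j _; change n + ω - (n + 0) ≤ ω; linarith
    · intro j hj; exact absurd hj (Nat.not_lt_zero j)
    · intro j h1 h2
      change j ≤ 0 at h2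
      omega
    · change n + ω + ((0 : ℕ) : ℝ) * (e / 2) ≤ n + ω
      simp
    · intro ζ hζ h
      change ζ ≤ n + ω - n at h
      have := hZ ζ hζ
      linarith
  | succ N ih =>
    obtain ⟨m, h⟩ := ih
    set β := m.b m.K - n with hβ
    have hβω : ω ≤ β := by
      have h1 := h.big
      have h2 : (0 : ℝ) ≤ N * (e / 2) := by positivity
      linarith
    by_cases hex : ∃ ζ ∈ Z, β < ζ ∧ ζ ≤ β + ω
    · obtain ⟨ζ, hζ, h1, h2⟩ := hex
      refine ⟨_, step ω e n he heω Z N m h ζ (n + ζ + ω) ω (by linarith) (by linarith) heω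
        (by linarith) (by linarith) (Or.inl ⟨hζ, rfl⟩) (by linarith) ?_⟩
      intro ζ' hζ' h3
      by_cases heq : ζ' = ζ
      · rw [heq]; linarith
      · have h4 := hZ2 ζ' hζ' ζ hζ heq
        rcases le_abs.1 h4 with h5 | h5
        · linarith
        · linarith
    · push Not at hex
      refine ⟨_, step ω e n he heω Z N m h (β + e / 4) (n + β + e / 2) e (by linarith)
        (by linarith) le_rfl (by linarith) (by linarith) (Or.inr ⟨rfl, by linarith, ?_⟩)
        (by linarith) ?_⟩
      · intro ζ hζ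
        rcases le_or_gt ζ β with h1 | h1
        · have h2 := h.inv ζ hζ h1
          refine le_trans ?_ (le_abs_self _)
          linarith
        · have h2 := hex ζ hζ h1
          refine le_trans ?_ (neg_le_abs _)
          linarith
      · intro ζ hζ h3
        rcases le_or_gt ζ β with h1 | h1
        · have h2 := h.inv ζ hζ h1
          linarith
        · have h2 := hex ζ hζ h1
          linarith

end M1T

theorem M1 : StM1 := by
  intro ω e Y n he heω Z hZ hZ2
  obtain ⟨N, hN⟩ := exists_nat_ge ((Y - n - ω) / (e / 2))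
  rw [div_le_iff₀ (by positivity)] at hN
  obtain ⟨m, h⟩ := M1T.exists_inv ω e n he heω Z hZ hZ2 N
  refine ⟨m, h.s0, h.b0, h.err0, h.smono, h.sb, h.bs, ?_, h.eerr, h.bs_err, h.sb_err, h.last⟩
  have := h.big
  linarith

end Crest.Agent.R92
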