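import Crest.Agent.R92.Defs

set_option autoImplicit false
open Finset Filter Topology

namespace Crest.Agent.R92

open Crest.AnalysisR.MassAction

namespace NN

variable {d : ℕ}

/-- value of the functional on a complex -/
noncomputable def al (a : Fin d → ℝ) (p : Fin d → ℕ) : ℝ := ∑ i, a i * (p i : ℝ)

/-- monomial -/
noncomputable def mon (x : Fin d → ℝ) (p : Fin d → ℕ) : ℝ := ∏ i, x i ^ (p i)

theorem mon_pos {x : Fin d → ℝ} (hx : ∀ i, 0 < x i) (p : Fin d → ℕ) : 0 < mon x p :=
  Finset.prod_pos fun i _ => pow_pos (hx i) _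

theorem log_mon {x : Fin d → ℝ} (hx : ∀ i, 0 < x i) (p : Fin d → ℕ) :
    Real.log (mon x p) = ∑ i, (p i : ℝ) * Real.log (x i) := by
  rw [mon, Real.log_prod fun i _ => (pow_pos (hx i) _).ne']
  refine Finset.sum_congr rfl fun i _ => ?_
  rw [Real.log_pow]

theorem ip_rv (a : Fin d → ℝ) (r : (Fin d → ℕ) × (Fin d → ℕ)) :
    ip a (reactionVector r) = al a r.2 - al a r.1 := by
  simp only [ip, reactionVector, al, mul_sub, Finset.sum_sub_distrib]

theorem ip_field (R : Network d) (k : (Fin d → ℕ) × (Fin d → ℕ) → ℝ) (a x : Fin d → ℝ) :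
    ip a (field R k x) = ∑ r ∈ R, k r * mon x r.1 * (al a r.2 - al a r.1) := by
  unfold field
  have h1 : ∀ r : (Fin d → ℕ) × (Fin d → ℕ), k r * mon x r.1 * (al a r.2 - al a r.1) =
      ip a ((k r * ∏ i, x i ^ (r.1 i)) • reactionVector r) := by
    intro r
    rw [← ip_rv]
    simp only [ip, Pi.smul_apply, smul_eq_mul, mon, Finset.mul_sum]
    refine Finset.sum_congr rfl fun i _ => ?_
    ring
  simp only [h1]
  simp only [ip, Finset.sum_apply, Finset.mul_sum]
  rw [Finset.sum_comm]

/-- a return path to a higher complex has an increasing step starting low -/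
theorem exists_up (R : Network d) (a : Fin d → ℝ) {y z : Fin d → ℕ}
    (h : Relation.ReflTransGen (fun a b => (a, b) ∈ R) y z) (hyz : al a y < al a z) :
    ∃ r ∈ R, al a r.1 < al a r.2 ∧ al a r.1 ≤ al a y := by
  induction h using Relation.ReflTransGen.head_induction_on with
  | refl => exact absurd hyz (lt_irrefl _)
  | head h1 h2 ih =>
    rename_i u v
    by_cases h3 : al a u < al a v
    · exact ⟨(u, v), h1, h3, le_rfl⟩
    · push Not at h3
      obtain ⟨r, hr, h4, h5⟩ := ih (h3.trans_lt hyz)
      exact ⟨r, hr, h4, h5.trans h3⟩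

/-- comparison of monomials -/
theorem mon_le {R : Network d} {a x : Fin d → ℝ} {κ t : ℝ} (ht0 : 0 < t) (ht1 : t < 1)
    (hx : ∀ i, 0 < x i)
    (hc : ∀ h ∈ diffs R, 0 < hv h a → κ ≤ hv h (fun i => Real.log (x i) / Real.log t))
    {r r' : (Fin d → ℕ) × (Fin d → ℕ)} (hr : r ∈ R) (hr' : r' ∈ R)
    (h : al a r'.1 < al a r.1) : mon x r.1 ≤ t ^ κ * mon x r'.1 := by
  set hh : Fin d → ℤ := fun i => (r.1 i : ℤ) - (r'.1 i : ℤ) with hhd
  have hmem : hh ∈ diffs R := by
    refine Finset.mem_image.2 ⟨(r.1, r'.1), ?_, rfl⟩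
    refine Finset.mem_product.2 ⟨?_, ?_⟩
    · exact Finset.mem_union_left _ (Finset.mem_image.2 ⟨r, hr, rfl⟩)
    · exact Finset.mem_union_left _ (Finset.mem_image.2 ⟨r', hr', rfl⟩)
  have hva : hv hh a = al a r.1 - al a r'.1 := by
    simp only [hv, hhd, al]
    rw [← Finset.sum_sub_distrib]
    refine Finset.sum_congr rfl fun i _ => ?_
    push_cast; ring
  have h1 := hc hh hmem (by rw [hva]; linarith)
  have hlt : Real.log t < 0 := Real.log_neg ht0 ht1
  have h2 : hv hh (fun i => Real.log (x i) / Real.log t) =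
      (Real.log (mon x r.1) - Real.log (mon x r'.1)) / Real.log t := by
    rw [log_mon hx, log_mon hx, ← Finset.sum_sub_distrib, Finset.sum_div]
    simp only [hv, hhd]
    refine Finset.sum_congr rfl fun i _ => ?_
    push_cast; ring
  rw [h2, le_div_iff_of_neg hlt] at h1
  have h3 : Real.log (mon x r.1) ≤ Real.log (t ^ κ * mon x r'.1) := by
    rw [Real.log_mul (Real.rpow_pos_of_pos ht0 _).ne' (mon_pos hx _).ne', Real.log_rpow ht0]
    linarith
  exact (Real.log_le_log_iff (mon_pos hx _)
    (mul_pos (Real.rpow_pos_of_pos ht0 _) (mon_pos hx _))).1 h3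

end NN

open NN in
theorem N : StN := by
  classical
  intro d R hR k hk a κ hκ
  by_cases hne : (R.filter fun r => al a r.1 < al a r.2).Nonempty
  · obtain ⟨r0, hr0, hmin⟩ := Finset.exists_min_image (R.filter fun r => al a r.1 < al a r.2)
      (fun r => k r * (al a r.2 - al a r.1)) hne
    set β : ℝ := k r0 * (al a r0.2 - al a r0.1) with hβ
    rw [Finset.mem_filter] at hr0
    have hβ0 : 0 < β := mul_pos (hk _ hr0.1) (sub_pos.2 hr0.2)
    set B : ℝ := ∑ r ∈ R, k r * |al a r.2 - al a r.1| + 1 with hB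
    have hBr : ∀ r ∈ R, k r * |al a r.2 - al a r.1| ≤ B := by
      intro r hr
      have := Finset.single_le_sum (f := fun r => k r * |al a r.2 - al a r.1|)
        (fun r hr => mul_nonneg (hk r hr).le (abs_nonneg _)) hr
      linarith
    have hB0 : 0 < B := by
      have : 0 ≤ ∑ r ∈ R, k r * |al a r.2 - al a r.1| :=
        Finset.sum_nonneg fun r hr => mul_nonneg (hk r hr).le (abs_nonneg _)
      linarith
    set ε : ℝ := β / (2 * (R.card + 1) * B) with hε
    have hε0 : 0 < ε := by positivity
    have hε1 : 0 < ε ^ (1 / κ) := Real.rpow_pos_of_pos hε0 _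
    refine ⟨min (1 / 2) (ε ^ (1 / κ)), lt_min (by norm_num) hε1,
      (min_le_left _ _).trans_lt (by norm_num), fun t ht0 ht x hx hc => ?_⟩
    right
    have ht1 : t < 1 := (ht.trans (min_le_left _ _)).trans_lt (by norm_num)
    have htκ : t ^ κ ≤ ε := by
      have h1 : t ≤ ε ^ (1 / κ) := ht.trans (min_le_right _ _)
      calc t ^ κ ≤ (ε ^ (1 / κ)) ^ κ := Real.rpow_le_rpow ht0.le h1 hκ.le
        _ = ε := by rw [← Real.rpow_mul hε0.le, one_div, inv_mul_cancel₀ hκ.ne', Real.rpow_one]
    have htk0 : 0 < t ^ κ := Real.rpow_pos_of_pos ht0 _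
    rw [ip_field]
    set P := R.filter fun r => al a r.1 < al a r.2 with hP
    set S : ℝ := ∑ r ∈ P, k r * mon x r.1 * (al a r.2 - al a r.1) with hS
    have hterm : ∀ r ∈ P, 0 < k r * mon x r.1 * (al a r.2 - al a r.1) := by
      intro r hr
      rw [hP, Finset.mem_filter] at hr
      exact mul_pos (mul_pos (hk _ hr.1) (mon_pos hx _)) (sub_pos.2 hr.2)
    have hS0 : 0 < S := Finset.sum_pos hterm hne
    have hneg : ∀ r ∈ R.filter fun r => ¬ al a r.1 < al a r.2,
        -(B / β * t ^ κ * S) ≤ k r * mon x r.1 * (al a r.2 - al a r.1) := by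
      intro r hr
      rw [Finset.mem_filter] at hr
      obtain ⟨hrR, hr2⟩ := hr
      push Not at hr2
      rcases eq_or_lt_of_le hr2 with h1 | h1
      · rw [h1, sub_self, mul_zero]
        have : 0 ≤ B / β * t ^ κ * S := by positivity
        linarith
      · obtain ⟨r', hr', h2, h3⟩ := exists_up R a (hR r hrR) h1
        have h4 := mon_le ht0 ht1 hx hc hrR hr' (h3.trans_lt h1)
        have h5 : r' ∈ P := Finset.mem_filter.2 ⟨hr', h2⟩
        have h6 : k r' * mon x r'.1 * (al a r'.2 - al a r'.1) ≤ S :=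
          Finset.single_le_sum (f := fun r => k r * mon x r.1 * (al a r.2 - al a r.1))
            (fun r hr => (hterm r hr).le) h5
        have h7 := hmin r' h5
        have h8 : β * mon x r'.1 ≤ S := by
          calc β * mon x r'.1 ≤ (k r' * (al a r'.2 - al a r'.1)) * mon x r'.1 :=
                mul_le_mul_of_nonneg_right h7 (mon_pos hx _).le
            _ = k r' * mon x r'.1 * (al a r'.2 - al a r'.1) := by ring
            _ ≤ S := h6
        have h9 : k r * mon x r.1 * (al a r.1 - al a r.2) ≤ B * mon x r.1 := by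
          have := hBr r hrR
          rw [abs_of_neg (by linarith)] at this
          calc k r * mon x r.1 * (al a r.1 - al a r.2) =
                (k r * -(al a r.2 - al a r.1)) * mon x r.1 := by ring
            _ ≤ B * mon x r.1 := mul_le_mul_of_nonneg_right this (mon_pos hx _).le
        have h10 : B * mon x r.1 ≤ B / β * t ^ κ * S := by
          calc B * mon x r.1 ≤ B * (t ^ κ * mon x r'.1) := by gcongr
            _ = B / β * t ^ κ * (β * mon x r'.1) := by field_simp
            _ ≤ B / β * t ^ κ * S := by gcongr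
        have h11 : k r * mon x r.1 * (al a r.2 - al a r.1) =
            -(k r * mon x r.1 * (al a r.1 - al a r.2)) := by ring
        rw [h11]
        linarith
    rw [← Finset.sum_filter_add_sum_filter_not R (fun r => al a r.1 < al a r.2)]
    have h12 : -((R.card : ℝ) * (B / β * t ^ κ * S)) ≤
        ∑ r ∈ R.filter fun r => ¬ al a r.1 < al a r.2,
          k r * mon x r.1 * (al a r.2 - al a r.1) := by
      have h13 := Finset.card_nsmul_le_sum (R.filter fun r => ¬ al a r.1 < al a r.2)
        (fun r => k r * mon x r.1 * (al a r.2 - al a r.1)) (-(B / β * t ^ κ * S)) hneg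
      rw [nsmul_eq_mul] at h13
      have h14 : ((R.filter fun r => ¬ al a r.1 < al a r.2).card : ℝ) ≤ R.card := by
        exact_mod_cast Finset.card_filter_le _ _
      have h15 : 0 ≤ B / β * t ^ κ * S := by positivity
      nlinarith
    have h16 : (R.card : ℝ) * (B / β * t ^ κ * S) ≤ S / 2 := by
      have h17 : (R.card : ℝ) * (B / β * t ^ κ) ≤ 1 / 2 := by
        calc (R.card : ℝ) * (B / β * t ^ κ) ≤ (R.card + 1) * (B / β * ε) := by
              gcongr
              linarith
          _ = 1 / 2 := by rw [hε]; field_simp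
      calc (R.card : ℝ) * (B / β * t ^ κ * S) = (R.card : ℝ) * (B / β * t ^ κ) * S := by ring
        _ ≤ 1 / 2 * S := by gcongr
        _ = S / 2 := by ring
    linarith
  · refine ⟨1 / 2, by norm_num, by norm_num, fun t _ _ x _ _ => Or.inl ?_⟩
    rw [Finset.not_nonempty_iff_eq_empty, Finset.filter_eq_empty_iff] at hne
    intro r hr
    rw [ip_rv]
    have h1 := hne hr
    push Not at h1
    rcases eq_or_lt_of_le h1 with h2 | h2
    · rw [h2, sub_self]
    · obtain ⟨r', hr', h3, _⟩ := exists_up R a (hR r hr) h2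
      exact absurd h3 (hne hr')

end Crest.Agent.R92
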