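import Crest.Agent.R92.Defs

set_option autoImplicit false
open Finset Filter Topology

namespace Crest.Agent.R92

theorem O1 : StO1 := by
  intro ι _ g T hT hc h0 hstep
  have key : Set.Icc 0 T ⊆ {u : ℝ | ∀ i, 0 ≤ g i u} := by
    apply IsClosed.Icc_subset_of_forall_mem_nhdsWithin
    · have h1 : {u : ℝ | ∀ i, 0 ≤ g i u} ∩ Set.Icc 0 T
          = Set.Icc 0 T ∩ ⋂ i, (Set.Icc 0 T ∩ (g i) ⁻¹' (Set.Ici 0)) := by
        ext u
        simp only [Set.mem_inter_iff, Set.mem_iInter, Set.mem_preimage, Set.mem_Ici]
        constructor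
        · rintro ⟨h, hu⟩
          exact ⟨hu, fun i => ⟨hu, h i⟩⟩
        · rintro ⟨hu, h⟩
          exact ⟨fun i => (h i).2, hu⟩
      rw [h1]
      exact isClosed_Icc.inter (isClosed_iInter fun i =>
        (hc i).preimage_isClosed_of_isClosed isClosed_Icc isClosed_Ici)
    · exact h0
    · rintro x ⟨hx, hx0, hxT⟩
      have hall : ∀ i, ∀ᶠ u in 𝓝[>] x, 0 ≤ g i u := by
        intro i
        rcases (hx i).lt_or_eq with hpos | hzero
        · have hci := (hc i x ⟨hx0, hxT.le⟩).eventually (lt_mem_nhds hpos)
          have hmem : Set.Icc 0 T ∈ 𝓝[>] x := Icc_mem_nhdsGT_of_mem ⟨hx0, hxT⟩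
          have := nhdsWithin_le_of_mem hmem hci
          filter_upwards [this] with u hu
          exact hu.le
        · rcases hstep x hx0 hxT hx i hzero.symm with ⟨g', hg', hd⟩ | hlater
          · rw [hasDerivWithinAt_iff_tendsto_slope] at hd
            have hset : Set.Ici x \ {x} = Set.Ioi x := by
              ext u; simp [lt_iff_le_and_ne]
            rw [hset] at hd
            have := hd.eventually (lt_mem_nhds hg')
            filter_upwards [this, self_mem_nhdsWithin] with u hu hux
            rw [slope_def_field] at hu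
            have hux' : 0 < u - x := sub_pos.2 hux
            have := (div_pos_iff_of_pos_right hux').1 hu
            rw [← hzero] at this
            linarith
          · have hmem : Set.Ioo x T ∈ 𝓝[>] x := Ioo_mem_nhdsGT hxT
            filter_upwards [hmem] with u hu
            exact hlater u hu.1.le hu.2.le
      exact (eventually_all.2 hall)
  intro i s hs0 hsT
  exact key ⟨hs0, hsT⟩ i

end Crest.Agent.R92
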