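import Crest.Agent.R92.Defs

set_option autoImplicit false
open Finset Filter Topology

namespace Crest.Agent.R92

theorem O2 : StO2 := by
  intro d S x F hx hF t ht
  by_contra hc
  obtain ⟨f, hf, hSf⟩ := Submodule.exists_le_ker_of_notMem hc
  apply hf
  let g : (Fin d → ℝ) →L[ℝ] ℝ := LinearMap.toContinuousLinearMap f
  have hg : ∀ z, g z = f z := fun z => rfl
  have hd : ∀ s, 0 ≤ s → HasDerivWithinAt (fun u => g (x u)) (g (F s)) (Set.Ici 0) s := by
    intro s hs
    exact g.hasFDerivAt.comp_hasDerivWithinAt s (hx s hs)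
  have hconst := constant_of_has_deriv_right_zero (f := fun u => g (x u)) (a := 0) (b := t) (by
    intro s hs
    exact ((hd s hs.1).continuousWithinAt).mono (fun u hu => hu.1)) (by
    intro s hs
    have h0 : g (F s) = 0 := by
      rw [hg]
      exact LinearMap.mem_ker.mp (hSf (hF s hs.1))
    rw [← h0]
    exact (hd s hs.1).mono (fun u hu => le_trans hs.1 hu)) t ⟨ht, le_refl t⟩
  rw [map_sub, sub_eq_zero]
  exact hconst

end Crest.Agent.R92
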