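import Crest.Agent.R92.Defs

set_option autoImplicit false
open Finset Filter Topology

namespace Crest.Agent.R92

open Crest.AnalysisR.MassAction

namespace O3

variable {d : ℕ}

theorem contDiff_field (R : Network d) (k : (Fin d → ℕ) × (Fin d → ℕ) → ℝ) :
    ContDiff ℝ 1 (field R k) := by
  unfold field
  apply ContDiff.sum
  intro r _
  have h1 : ContDiff ℝ 1 (fun x : Fin d → ℝ => k r * ∏ i, x i ^ (r.1 i)) := by
    apply contDiff_const.mul
    apply contDiff_prod
    intro i _
    exact (contDiff_apply ℝ ℝ i).pow _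
  exact h1.smul (contDiff_const (c := reactionVector r))

end O3

theorem O3 : StO3 := by
  intro d R k x x' hx hx' h0 t ht
  have hc : ContinuousOn x (Set.Icc 0 t) := fun s hs =>
    ((hx s hs.1).continuousWithinAt).mono (fun u hu => hu.1)
  have hc' : ContinuousOn x' (Set.Icc 0 t) := fun s hs =>
    ((hx' s hs.1).continuousWithinAt).mono (fun u hu => hu.1)
  have hb1 := (isCompact_Icc.image_of_continuousOn hc).isBounded
  have hb2 := (isCompact_Icc.image_of_continuousOn hc').isBounded
  obtain ⟨r, hr⟩ := (hb1.union hb2).subset_closedBall (0 : Fin d → ℝ)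
  obtain ⟨K, hK⟩ := ContDiffOn.exists_lipschitzOnWith
    (s := Metric.closedBall (0 : Fin d → ℝ) r) (f := field R k) (n := 1)
    (O3.contDiff_field R k).contDiffOn one_ne_zero (convex_closedBall _ _)
    (isCompact_closedBall _ _)
  have := ODE_solution_unique_of_mem_Icc_right (v := fun _ => field R k)
    (s := fun _ => Metric.closedBall (0 : Fin d → ℝ) r) (K := K) (f := x) (g := x') (a := 0) (b := t)
    (fun s _ => hK) hc
    (fun s hs => (hx s hs.1).mono (fun u hu => le_trans hs.1 hu))
    (fun s hs => hr (Or.inl ⟨s, ⟨hs.1, hs.2.le⟩, rfl⟩)) hc'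
    (fun s hs => (hx' s hs.1).mono (fun u hu => le_trans hs.1 hu))
    (fun s hs => hr (Or.inr ⟨s, ⟨hs.1, hs.2.le⟩, rfl⟩)) h0
  exact this ⟨ht, le_refl t⟩

end Crest.Agent.R92
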