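import Crest.Agent.R92.Defs

/-! Row 92, task O4: global forward existence for bounded Lipschitz fields. -/

set_option autoImplicit false

namespace Crest.Agent.R92

open Crest.AnalysisR.MassAction Set
open scoped NNReal

namespace O4

variable {E : Type} [NormedAddCommGroup E] [NormedSpace ℝ E] [CompleteSpace E]

theorem picard {F : E → E} {K L : ℝ≥0} (hF : LipschitzWith K F) (hL : ∀ x, ‖F x‖ ≤ L) (x₀ : E)
    (T : ℝ) (hT : 0 < T) :
    ∃ α : ℝ → E, α 0 = x₀ ∧ ∀ t, -T < t → t < T → HasDerivAt α (F (α t)) t := by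
  have h0 : (0 : ℝ) ∈ Icc (-T) T := ⟨by linarith, hT.le⟩
  have hP : IsPicardLindelof (fun _ => F) (⟨0, h0⟩ : Icc (-T) T) x₀ (L * ⟨T, hT.le⟩) 0 L K := by
    refine IsPicardLindelof.of_time_independent (fun x _ => hL x) hF.lipschitzOnWith ?_
    simp only [sub_zero, zero_sub, neg_neg, max_self, NNReal.coe_zero]
    exact le_rfl
  obtain ⟨α, h1, h2⟩ := hP.exists_eq_forall_mem_Icc_hasDerivWithinAt₀
  refine ⟨α, h1, fun t ht1 ht2 => ?_⟩
  exact (h2 t ⟨ht1.le, ht2.le⟩).hasDerivAt (Icc_mem_nhds ht1 ht2)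

theorem global {F : E → E} {K L : ℝ≥0} (hF : LipschitzWith K F) (hL : ∀ x, ‖F x‖ ≤ L) (x₀ : E) :
    ∃ x : ℝ → E, x 0 = x₀ ∧ ∀ t : ℝ, 0 ≤ t → HasDerivWithinAt x (F (x t)) (Ici 0) t := by
  have h := fun n : ℕ => picard hF hL x₀ ((n : ℝ) + 1) (by positivity)
  choose α h1 h2 using h
  have huniq : ∀ (n m : ℕ) (s : ℝ), 0 ≤ s → s < n + 1 → s < m + 1 → α n s = α m s := by
    intro n m s hs0 hsn hsm
    have hc : ∀ (k : ℕ) (t : ℝ), t ∈ Icc 0 s → s < k + 1 → HasDerivAt (α k) (F (α k t)) t := by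
      intro k t ht hk
      refine h2 k t ?_ (lt_of_le_of_lt ht.2 hk)
      have : (0 : ℝ) ≤ k := by positivity
      linarith [ht.1]
    have := ODE_solution_unique (v := fun _ => F) (K := K) (f := α n) (g := α m) (a := 0) (b := s)
      (fun _ => hF)
      (fun t ht => (hc n t ht hsn).continuousAt.continuousWithinAt)
      (fun t ht => (hc n t (Ico_subset_Icc_self ht) hsn).hasDerivWithinAt)
      (fun t ht => (hc m t ht hsm).continuousAt.continuousWithinAt)
      (fun t ht => (hc m t (Ico_subset_Icc_self ht) hsm).hasDerivWithinAt)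
      (by rw [h1, h1])
    exact this ⟨hs0, le_rfl⟩
  have hfl : ∀ s : ℝ, 0 ≤ s → s < (⌊s⌋₊ : ℝ) + 1 := fun s _ => Nat.lt_floor_add_one s
  refine ⟨fun t => α ⌊t⌋₊ t, ?_, ?_⟩
  · simp [h1]
  · intro t ht
    have hx : ∀ s, 0 ≤ s → s < (⌊t⌋₊ : ℝ) + 1 → α ⌊s⌋₊ s = α ⌊t⌋₊ s := by
      intro s hs hst
      exact huniq _ _ s hs (hfl s hs) hst
    have hd : HasDerivAt (α ⌊t⌋₊) (F (α ⌊t⌋₊ t)) t := by
      refine h2 _ t ?_ (hfl t ht)
      have : (0 : ℝ) ≤ ⌊t⌋₊ := by positivity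
      linarith
    refine hd.hasDerivWithinAt.congr_of_eventuallyEq ?_ rfl
    have : Iio ((⌊t⌋₊ : ℝ) + 1) ∈ nhdsWithin t (Ici 0) :=
      mem_nhdsWithin_of_mem_nhds (Iio_mem_nhds (hfl t ht))
    filter_upwards [this, self_mem_nhdsWithin] with s hs1 hs2
    exact hx s hs2 hs1

theorem contDiff_field {d : ℕ} (R : Network d) (k : (Fin d → ℕ) × (Fin d → ℕ) → ℝ) :
    ContDiff ℝ 1 (field R k) := by
  unfold field
  refine ContDiff.sum fun r _ => ?_
  have h : ∀ i : Fin d, ContDiff ℝ 1 (fun x : Fin d → ℝ => x i ^ (r.1 i)) := fun i =>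
    (contDiff_apply ℝ ℝ i).pow _
  have h2 : ContDiff ℝ 1 (fun x : Fin d → ℝ => k r * ∏ i, x i ^ (r.1 i)) :=
    contDiff_const.mul (contDiff_prod fun i _ => h i)
  exact h2.smul contDiff_const

theorem lip_clamp {d : ℕ} (l u : ℝ) : LipschitzWith 1 (clampv (d := d) l u) := by
  refine LipschitzWith.of_dist_le_mul fun x y => ?_
  rw [NNReal.coe_one, one_mul, dist_pi_le_iff dist_nonneg]
  intro i
  unfold clampv
  calc dist (max l (min u (x i))) (max l (min u (y i))) ≤ dist (x i) (y i) := by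
        have h1 : LipschitzWith 1 (fun t : ℝ => max l (min u t)) := by
          have := (LipschitzWith.id (α := ℝ)).const_min u
          exact this.const_max l
        simpa using h1.dist_le_mul (x i) (y i)
    _ ≤ dist x y := dist_le_pi_dist x y i

end O4

theorem O4 : StO4 := by
  intro d R k l u hl hlu x₀
  have hbox : IsCompact (Icc (fun _ : Fin d => l) (fun _ : Fin d => u)) := isCompact_Icc
  have hfld := O4.contDiff_field R k
  obtain ⟨K, hK⟩ := LocallyLipschitzOn.exists_lipschitzOnWith_of_compact hbox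
    (hfld.locallyLipschitz.locallyLipschitzOn (s := Icc (fun _ : Fin d => l) (fun _ : Fin d => u)))
  obtain ⟨L, hL⟩ := hbox.exists_bound_of_continuousOn hfld.continuous.continuousOn
  have hcl : ∀ z : Fin d → ℝ, clampv l u z ∈ Icc (fun _ : Fin d => l) (fun _ : Fin d => u) := by
    intro z
    refine ⟨fun i => le_max_left _ _, fun i => max_le hlu (min_le_left _ _)⟩
  have hF : LipschitzWith (K * 1) (fun z : Fin d → ℝ => field R k (clampv l u z)) := by
    rw [← lipschitzOnWith_univ]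
    exact hK.comp (O4.lip_clamp l u).lipschitzOnWith (fun z _ => hcl z)
  obtain ⟨x, h1, h2⟩ := O4.global (L := ⟨max L 0, le_max_right _ _⟩) hF
    (fun z => (hL _ (hcl z)).trans (le_max_left _ _)) x₀
  exact ⟨x, h1, h2⟩

end Crest.Agent.R92
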