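import Crest.Agent.R92.Defs

set_option autoImplicit false
open Finset Filter Topology

namespace Crest.Agent.R92

variable {d : ℕ}

lemma RR_ge_two {C : ℝ} (hC : 1 ≤ C) (k : ℕ) : 2 ≤ RR C k := by
  induction k with
  | zero => simp only [RR]; linarith
  | succ k ih =>
    simp only [RR]
    have h1 : 1 ≤ C ^ 2 := one_le_pow₀ hC
    have h2 : 4 ≤ (RR C k) ^ 2 := by nlinarith
    nlinarith

lemma om_pos {C : ℝ} (hC : 1 ≤ C) (k : ℕ) {e : ℝ} (he : 0 < e) : 0 < om C k e := by
  have := RR_ge_two hC (k - 1)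
  unfold om; positivity

lemma om_ge {C : ℝ} (hC : 1 ≤ C) (k : ℕ) {e : ℝ} (he : 0 < e) : 4 * e ≤ om C k e := by
  have := RR_ge_two hC (k - 1)
  unfold om
  nlinarith

lemma GoodMk.s_nonneg {W : Finset (Fin d → ℤ)} {C Y : ℝ} {σ : St d} {m : Mk}
    (h : GoodMk W C Y σ m) : ∀ j ≤ m.K, 0 ≤ m.s j := by
  intro j
  induction j with
  | zero => intro _; rw [h.s0]
  | succ j ih => intro hj; exact (ih (by omega)).trans (h.smono j (by omega)).le

lemma GoodMk.s_pos {W : Finset (Fin d → ℤ)} {C Y : ℝ} {σ : St d} {m : Mk}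
    (h : GoodMk W C Y σ m) : ∀ j, 1 ≤ j → j ≤ m.K → 0 < m.s j := by
  intro j h1 hj
  obtain ⟨j, rfl⟩ : ∃ j', j = j' + 1 := ⟨j - 1, by omega⟩
  exact lt_of_le_of_lt (h.s_nonneg j (by omega)) (h.smono j (by omega))

lemma GoodMk.b0_le {W : Finset (Fin d → ℤ)} {C Y : ℝ} {σ : St d} {m : Mk}
    (h : GoodMk W C Y σ m) : ∀ j ≤ m.K, m.b 0 ≤ m.b j := by
  intro j
  induction j with
  | zero => intro _; exact le_rfl
  | succ j ih =>
    intro hj
    exact (ih (by omega)).trans ((h.bs j (by omega)).trans (h.sb (j + 1) hj)).le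

lemma eps_succ (m : Mk) (j : ℕ) (t : ℝ) :
    epsf m (j + 1) t = epsf m j t + (m.s (j + 1) - m.s j) * t ^ (m.b j) := by
  simp [epsf, Finset.sum_range_succ]

lemma eps_zero (m : Mk) (t : ℝ) : epsf m 0 t = 0 := by simp [epsf]

lemma GoodMk.eps_bd {W : Finset (Fin d → ℤ)} {C Y : ℝ} {σ : St d} {m : Mk}
    (h : GoodMk W C Y σ m) {t : ℝ} (t0 : 0 < t) (t1 : t < 1) :
    ∀ j ≤ m.K, 0 ≤ epsf m j t ∧ epsf m j t ≤ m.s j * t ^ (m.b 0) := by
  intro j
  induction j with
  | zero => intro _; simp [eps_zero, h.s0]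
  | succ j ih =>
    intro hj
    obtain ⟨i1, i2⟩ := ih (by omega)
    rw [eps_succ]
    have h1 : 0 < m.s (j + 1) - m.s j := sub_pos.2 (h.smono j (by omega))
    have h2 : 0 < t ^ (m.b j) := Real.rpow_pos_of_pos t0 _
    have h3 : t ^ (m.b j) ≤ t ^ (m.b 0) :=
      Real.rpow_le_rpow_of_exponent_ge t0 t1.le (h.b0_le j (by omega))
    constructor
    · positivity
    · nlinarith [mul_le_mul_of_nonneg_left h3 h1.le]

lemma contDiffOn_eps (m : Mk) (j : ℕ) : ContDiffOn ℝ 1 (epsf m j) (Set.Ioi 0) := by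
  unfold epsf
  apply ContDiffOn.sum
  intro l _
  apply ContDiffOn.mul contDiffOn_const
  intro t ht
  exact (contDiffAt_id.rpow_const_of_ne (ne_of_gt ht)).contDiffWithinAt

lemma bump_notMem {v : Fin d → ℝ} {P : Finset (Fin d)} {s : ℝ} {i : Fin d} (h : i ∉ P) :
    bump v P s i = v i := by simp [bump, h]

lemma bump_mem {v : Fin d → ℝ} {P : Finset (Fin d)} {s : ℝ} {i : Fin d} (h : i ∈ P) :
    bump v P s i = v i + s := by simp [bump, h]

theorem PP : StP := by
  intro d W C Y M hC hM v n P e a E hV hp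
  induction hp with
  | nil v n e =>
    refine ⟨fun i _ => rfl, by simp, ?_, contDiffOn_const⟩
    intro t _ _
    simp
  | cons v n P e q j a E hq hj h ih =>
    have hG := hM v n P e hV ⟨q, hq⟩
    have hsub := hG.sub j hj q hq
    obtain ⟨i1, i2, i3, i4⟩ := ih hsub
    set m := M ⟨v, n, P, e⟩ with hm
    have hs := hG.s_nonneg j hj
    have hvP := hV.1
    -- value on P
    have haP : ∀ i ∈ P, n + m.s j ≤ a i := by
      intro i hi
      by_cases hiq : i = q
      · subst hiq
        rw [i1 i (by simp), bump_mem hi, hvP i hi]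
      · exact i2 i (Finset.mem_erase.2 ⟨hiq, hi⟩)
    refine ⟨?_, fun i hi => by linarith [haP i hi], ?_, ?_⟩
    · intro i hi
      rw [i1 i (fun h' => hi (Finset.mem_of_mem_erase h')), bump_notMem hi]
    · intro t t0 t1
      obtain ⟨e1, e2⟩ := hG.eps_bd t0 t1 j hj
      obtain ⟨f1, f2⟩ := i3 t t0 t1
      have hcard : (0:ℝ) ≤ P.card := Nat.cast_nonneg _
      refine ⟨by positivity, ?_⟩
      have herr : 0 < m.err j := hsub.2.1
      have hexp : n + om C P.card e ≤ n + m.s j + om C (P.erase q).card (m.err j) := by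
        have h1 := om_ge hC (P.erase q).card herr
        have h2 := hG.bs_err j hj
        have h3 := hG.b0_le j hj
        have h4 := hG.b0
        simp only at h2 h4
        linarith
      have hpow : t ^ (n + m.s j + om C (P.erase q).card (m.err j)) ≤ t ^ (n + om C P.card e) :=
        Real.rpow_le_rpow_of_exponent_ge t0 t1.le hexp
      have hb0 : m.b 0 = n + om C P.card e := hG.b0
      rw [hb0] at e2
      have hsum : ∑ i ∈ P.erase q, (a i - (n + m.s j)) = ∑ i ∈ P, (a i - (n + m.s j)) := by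
        rw [← Finset.add_sum_erase P _ hq]
        have : a q = n + m.s j := by rw [i1 q (by simp), bump_mem hq, hvP q hq]
        rw [this]; ring
      rw [hsum] at f2
      have hnn : 0 ≤ ∑ i ∈ P, (a i - (n + m.s j)) :=
        Finset.sum_nonneg (fun i hi => sub_nonneg.2 (haP i hi))
      have hsplit : ∑ i ∈ P, (a i - n) = P.card * m.s j + ∑ i ∈ P, (a i - (n + m.s j)) := by
        rw [← nsmul_eq_mul, ← Finset.sum_const, ← Finset.sum_add_distrib]
        apply Finset.sum_congr rfl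
        intro i _; ring
      rw [hsplit]
      have := mul_le_mul_of_nonneg_left hpow hnn
      have := mul_le_mul_of_nonneg_left e2 hcard
      nlinarith
    · exact (contDiffOn_const.mul (contDiffOn_eps m j)).add i4

end Crest.Agent.R92
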