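import Crest.Agent.R92.P

set_option autoImplicit false
open Finset Filter Topology

namespace Crest.Agent.R92

variable {d : ℕ}

lemma bump_zero (v : Fin d → ℝ) (P : Finset (Fin d)) : bump v P 0 = v := by
  funext i; simp [bump]

lemma cons_zero_eq (m : Mk) (P : Finset (Fin d)) (E : ℝ → ℝ) :
    (fun t => (P.card : ℝ) * epsf m 0 t + E t) = E := by
  funext t; simp [eps_zero]

lemma valid_sub {W : Finset (Fin d → ℤ)} {C Y : ℝ} {M : St d → Mk} (hM : Good W C Y M)
    {v : Fin d → ℝ} {n : ℝ} {P : Finset (Fin d)} {e : ℝ} (hV : Valid W C v n P e)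
    {q : Fin d} (hq : q ∈ P) {j : ℕ} (hj : j ≤ (M ⟨v, n, P, e⟩).K) :
    Valid W C (bump v P ((M ⟨v, n, P, e⟩).s j)) (n + (M ⟨v, n, P, e⟩).s j) (P.erase q)
      ((M ⟨v, n, P, e⟩).err j) :=
  (hM v n P e hV ⟨q, hq⟩).sub j hj q hq

/-- a tie step -/
lemma path_tie {W : Finset (Fin d → ℤ)} {C Y : ℝ} {M : St d → Mk} (hM : Good W C Y M)
    {v : Fin d → ℝ} {n : ℝ} {P : Finset (Fin d)} {e : ℝ} (hV : Valid W C v n P e)
    {q : Fin d} (hq : q ∈ P) {a : Fin d → ℝ} {E : ℝ → ℝ}
    (h : Path M v n (P.erase q) (om C P.card e) a E) : Path M v n P e a E := by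
  have hG := hM v n P e hV ⟨q, hq⟩
  have := Path.cons (M := M) v n P e q 0 a E hq (Nat.zero_le _) (by
    rw [hG.s0, hG.err0, bump_zero, add_zero]; exact h)
  rwa [cons_zero_eq] at this

/-- validity of the tie sub-state -/
lemma valid_tie {W : Finset (Fin d → ℤ)} {C Y : ℝ} {M : St d → Mk} (hM : Good W C Y M)
    {v : Fin d → ℝ} {n : ℝ} {P : Finset (Fin d)} {e : ℝ} (hV : Valid W C v n P e)
    {q : Fin d} (hq : q ∈ P) : Valid W C v n (P.erase q) (om C P.card e) := by
  have hG := hM v n P e hV ⟨q, hq⟩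
  have := hG.sub 0 (Nat.zero_le _) q hq
  rw [hG.s0, hG.err0] at this
  simpa [bump_zero] using this

theorem PC : StPC := by
  intro d W C Y M hM v n P e hV
  induction hk : P.card generalizing P e with
  | zero =>
    rw [Finset.card_eq_zero] at hk
    subst hk
    exact Path.nil v n e
  | succ k ih =>
    obtain ⟨q, hq⟩ : P.Nonempty := by
      rw [← Finset.card_pos]; omega
    exact path_tie hM hV hq (ih _ _ (valid_tie hM hV hq)
      (by rw [Finset.card_erase_of_mem hq]; omega))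

end Crest.Agent.R92
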