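import Crest.Agent.R92.Defs

set_option autoImplicit false
open Finset Filter Topology

namespace Crest.Agent.R92

theorem PF : StPF := by
  intro d M v n P e
  induction hk : P.card using Nat.strong_induction_on generalizing v n P e with
  | _ k ih =>
  subst hk
  have hsub : {p : (Fin d → ℝ) × (ℝ → ℝ) | Path M v n P e p.1 p.2} ⊆
      ({(v, fun _ => 0)} : Set ((Fin d → ℝ) × (ℝ → ℝ))) ∪
      ⋃ q ∈ P, ⋃ j ∈ Finset.range ((M ⟨v, n, P, e⟩).K + 1),
        (fun p : (Fin d → ℝ) × (ℝ → ℝ) =>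
          ((p.1, fun t => (P.card : ℝ) * epsf (M ⟨v, n, P, e⟩) j t + p.2 t) :
            (Fin d → ℝ) × (ℝ → ℝ))) ''
          {p : (Fin d → ℝ) × (ℝ → ℝ) | Path M (bump v P ((M ⟨v, n, P, e⟩).s j))
            (n + (M ⟨v, n, P, e⟩).s j) (P.erase q) ((M ⟨v, n, P, e⟩).err j) p.1 p.2} := by
    rintro ⟨a, E⟩ h
    simp only [Set.mem_ofPred_eq] at h
    cases h with
    | nil =>
      left
      rfl
    | cons _ _ _ _ q j _ E' hq hj h' =>
      right
      simp only [Set.mem_iUnion]
      refine ⟨q, hq, j, Finset.mem_range.mpr (by omega), ⟨(a, E'), h', rfl⟩⟩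
  apply Set.Finite.subset _ hsub
  apply Set.Finite.union (Set.finite_singleton _)
  apply Set.Finite.biUnion (Finset.finite_toSet P)
  intro q hq
  apply Set.Finite.biUnion (Finset.finite_toSet _)
  intro j _
  apply Set.Finite.image
  apply ih _ _ _ _ _ _ rfl
  exact Finset.card_erase_lt_of_mem hq

end Crest.Agent.R92
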