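import Crest.Agent.R92.PC

set_option autoImplicit false
open Finset Filter Topology

namespace Crest.Agent.R92

variable {d : ℕ}

theorem PS : StPS := by
  intro d W C Y M hC hM v n P e a E i hV hp hi hai
  induction hp with
  | nil v n e => simp at hi
  | cons v n P e q j a E hq hj h ih =>
    have hG := hM v n P e hV ⟨q, hq⟩
    have hsub := valid_sub hM hV hq hj
    obtain ⟨i1, i2, _, _⟩ := PP d W C Y M hC hM _ _ _ _ a E hsub h
    have hj0 : j = 0 := by
      by_contra hj0
      have hs := hG.s_pos j (by omega) hj
      by_cases hiq : i = q
      · subst hiq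
        have := i1 i (by simp)
        rw [bump_mem hq, hV.1 i hq] at this
        linarith
      · have := i2 i (Finset.mem_erase.2 ⟨hiq, hi⟩)
        linarith
    subst hj0
    rw [cons_zero_eq]
    rw [hG.s0, hG.err0, bump_zero, add_zero] at h ih
    have hV' := valid_tie hM hV hq
    by_cases hiq : i = q
    · subst hiq; exact h
    · have hi' : i ∈ P.erase q := Finset.mem_erase.2 ⟨hiq, hi⟩
      have ih' := ih hV' hi' hai
      have hVi := valid_tie hM hV hi
      have hq' : q ∈ P.erase i := Finset.mem_erase.2 ⟨fun h => hiq h.symm, hq⟩
      refine path_tie hM hVi hq' ?_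
      rw [Finset.erase_right_comm]
      have hc : (P.erase i).card = (P.erase q).card := by
        rw [Finset.card_erase_of_mem hi, Finset.card_erase_of_mem hq]
      rw [hc]
      exact ih'

end Crest.Agent.R92
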