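import Crest.Agent.R92.Defs

set_option autoImplicit false
open Finset Filter Topology

namespace Crest.Agent.R92

open Crest.AnalysisR.MassAction

theorem U.cont_hv {d : ℕ} (h : Fin d → ℤ) : Continuous (fun v : Fin d → ℝ => hv h v) := by
  unfold hv
  exact continuous_finsetSum _ fun i _ => continuous_const.mul (continuous_apply i)

theorem U.bounds {d : ℕ} {Y : ℝ} {A : Finset ((Fin d → ℝ) × (ℝ → ℝ))} (hG : Geo0 Y A)
    {t : ℝ} (ht0 : 0 < t) (ht1 : t < 1) {x : Fin d → ℝ} (hx : x ∈ KK A t) (i : Fin d) :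
    0 < x i ∧ -1 ≤ Real.log (x i) / Real.log t ∧ Real.log (x i) / Real.log t ≤ Y := by
  obtain ⟨h1, h2⟩ := hG.1 t ht0 ht1 x hx i
  have hpos : 0 < x i := lt_of_lt_of_le (Real.rpow_pos_of_pos ht0 Y) h1
  have hlt : Real.log t < 0 := Real.log_neg ht0 ht1
  refine ⟨hpos, ?_, ?_⟩
  · rw [le_div_iff_of_neg hlt]
    have := Real.log_le_log hpos h2
    rw [Real.log_inv] at this
    linarith
  · rw [div_le_iff_of_neg hlt]
    have := Real.log_le_log (Real.rpow_pos_of_pos ht0 Y) h1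
    rwa [Real.log_rpow ht0] at this

theorem U.single {d : ℕ} {W : Finset (Fin d → ℤ)} {Y : ℝ}
    {A : Finset ((Fin d → ℝ) × (ℝ → ℝ))} (hG : Geo0 Y A)
    (hseq : ∀ p ∈ A, ∀ (t : ℕ → ℝ) (x : ℕ → Fin d → ℝ) (y : Fin d → ℝ), LogSeq t x y →
      (∀ m, x m ∈ KK A (t m)) → (∀ m, ip p.1 (x m) = p.2 (t m)) →
      ∀ h ∈ W, 0 < hv h p.1 → 0 < hv h y)
    (p : (Fin d → ℝ) × (ℝ → ℝ)) (hp : p ∈ A) (h : Fin d → ℤ) (hh : h ∈ W)
    (hpos : 0 < hv h p.1) :
    ∃ δ : ℝ, 0 < δ ∧ δ < 1 ∧ ∀ t, 0 < t → t ≤ δ → ∀ x ∈ KK A t, ip p.1 x = p.2 t →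
      δ ≤ hv h (fun i => Real.log (x i) / Real.log t) := by
  by_contra hcon
  push Not at hcon
  have hch : ∀ m : ℕ, ∃ t : ℝ, 0 < t ∧ t ≤ 1 / ((m : ℝ) + 2) ∧ ∃ x ∈ KK A t, ip p.1 x = p.2 t ∧
      hv h (fun i => Real.log (x i) / Real.log t) < 1 / ((m : ℝ) + 2) := by
    intro m
    have h1 : (0 : ℝ) < 1 / ((m : ℝ) + 2) := by positivity
    have h2 : 1 / ((m : ℝ) + 2) < 1 := by
      rw [div_lt_one (by positivity)]
      have : (0 : ℝ) ≤ m := Nat.cast_nonneg m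
      linarith
    obtain ⟨t, ht0, ht1, x, hx, he, hl⟩ := hcon _ h1 h2
    exact ⟨t, ht0, ht1, x, hx, he, hl⟩
  choose t ht0 ht1 x hx he hl using hch
  have htlt : ∀ m, t m < 1 := by
    intro m
    refine (ht1 m).trans_lt ?_
    rw [div_lt_one (by positivity)]
    have : (0 : ℝ) ≤ m := Nat.cast_nonneg m
    linarith
  have htend : Tendsto t atTop (𝓝 0) := by
    refine squeeze_zero (fun m => (ht0 m).le) ht1 ?_
    have h3 : Tendsto (fun n : ℕ => 1 / ((n : ℝ) + 1)) atTop (𝓝 0) :=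
      tendsto_one_div_add_atTop_nhds_zero_nat
    have h4 := (tendsto_add_atTop_iff_nat 1).2 h3
    refine h4.congr fun m => ?_
    push_cast
    ring_nf
  set yy : ℕ → Fin d → ℝ := fun m i => Real.log (x m i) / Real.log (t m) with hyy
  have hmem : ∀ m, yy m ∈ Set.Icc (fun _ : Fin d => (-1 : ℝ)) (fun _ => Y) := by
    intro m
    exact ⟨fun i => (U.bounds hG (ht0 m) (htlt m) (hx m) i).2.1,
      fun i => (U.bounds hG (ht0 m) (htlt m) (hx m) i).2.2⟩
  obtain ⟨y, _, φ, hφ, hy⟩ := isCompact_Icc.tendsto_subseq hmem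
  have hLS : LogSeq (t ∘ φ) (x ∘ φ) y := by
    refine ⟨fun m => ⟨ht0 _, htlt _⟩, htend.comp hφ.tendsto_atTop,
      fun m i => (U.bounds hG (ht0 _) (htlt _) (hx _) i).1, fun i => ?_⟩
    exact (tendsto_pi_nhds.1 hy) i
  have hgt := hseq p hp (t ∘ φ) (x ∘ φ) y hLS (fun m => hx _) (fun m => he _) h hh hpos
  have hle : hv h y ≤ 0 := by
    have h5 : Tendsto (fun m => hv h (yy (φ m))) atTop (𝓝 (hv h y)) :=
      ((U.cont_hv h).tendsto y).comp hy
    have h6 : Tendsto (fun m : ℕ => 1 / (((φ m : ℕ) : ℝ) + 2)) atTop (𝓝 0) := by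
      have h3 : Tendsto (fun n : ℕ => 1 / ((n : ℝ) + 1)) atTop (𝓝 0) :=
        tendsto_one_div_add_atTop_nhds_zero_nat
      have h4 := (tendsto_add_atTop_iff_nat 1).2 h3
      have h7 : Tendsto (fun n : ℕ => 1 / ((n : ℝ) + 2)) atTop (𝓝 0) := by
        refine h4.congr fun m => ?_
        push_cast
        ring_nf
      exact h7.comp hφ.tendsto_atTop
    exact le_of_tendsto_of_tendsto' h5 h6 fun m => (hl (φ m)).le
  exact absurd hgt (not_lt.2 hle)

theorem U : StG → StU := by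
  intro hG d W
  obtain ⟨Y, A, hgeo, hseq⟩ := hG d W
  refine ⟨Y, A, hgeo, ?_⟩
  have key : ∀ s : Finset (((Fin d → ℝ) × (ℝ → ℝ)) × (Fin d → ℤ)),
      s ⊆ A ×ˢ W → ∃ δ : ℝ, 0 < δ ∧ δ < 1 ∧ ∀ q ∈ s, ∀ t, 0 < t → t ≤ δ → ∀ x ∈ KK A t,
        ip q.1.1 x = q.1.2 t → 0 < hv q.2 q.1.1 →
        δ ≤ hv q.2 (fun i => Real.log (x i) / Real.log t) := by
    classical
    intro s
    induction s using Finset.induction_on with
    | empty => intro _; exact ⟨1 / 2, by norm_num, by norm_num, by simp⟩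
    | insert q s hq ih =>
      intro hs
      obtain ⟨δ, h0, h1, h2⟩ := ih ((Finset.subset_insert _ _).trans hs)
      have hqA : q ∈ A ×ˢ W := hs (Finset.mem_insert_self _ _)
      rw [Finset.mem_product] at hqA
      by_cases hpos : 0 < hv q.2 q.1.1
      · obtain ⟨δ', h0', h1', h2'⟩ := U.single hgeo hseq q.1 hqA.1 q.2 hqA.2 hpos
        refine ⟨min δ δ', lt_min h0 h0', (min_le_left _ _).trans_lt h1, ?_⟩
        intro r hr t ht htm x hx he hr'
        rcases Finset.mem_insert.1 hr with rfl | hr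
        · exact (min_le_right _ _).trans
            (h2' t ht (htm.trans (min_le_right _ _)) x hx he)
        · exact (min_le_left _ _).trans
            (h2 r hr t ht (htm.trans (min_le_left _ _)) x hx he hr')
      · refine ⟨δ, h0, h1, ?_⟩
        intro r hr t ht htm x hx he hr'
        rcases Finset.mem_insert.1 hr with rfl | hr
        · exact absurd hr' hpos
        · exact h2 r hr t ht htm x hx he hr'
  obtain ⟨δ, h0, h1, h2⟩ := key (A ×ˢ W) (Finset.Subset.refl _)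
  refine ⟨δ, δ, h0, h1, h0, ?_⟩
  intro t ht htd x hx p hp he h hh hpos
  exact h2 (p, h) (Finset.mem_product.2 ⟨hp, hh⟩) t ht htd x hx he hpos

end Crest.Agent.R92
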