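import Crest.Agent.R92.Defs

set_option autoImplicit false
open Finset Filter Topology

namespace Crest.Agent.R92

open Crest.AnalysisR.MassAction

theorem V0.ip_add {d : ℕ} (a x y : Fin d → ℝ) : ip a (x + y) = ip a x + ip a y := by
  unfold ip
  rw [← Finset.sum_add_distrib]
  exact Finset.sum_congr rfl fun i _ => by simp [mul_add]

theorem V0.ip_sub {d : ℕ} (a x y : Fin d → ℝ) : ip a (x - y) = ip a x - ip a y := by
  unfold ip
  rw [← Finset.sum_sub_distrib]
  exact Finset.sum_congr rfl fun i _ => by simp [mul_sub]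

theorem V0.ip_smul {d : ℕ} (a : Fin d → ℝ) (c : ℝ) (x : Fin d → ℝ) :
    ip a (c • x) = c * ip a x := by
  unfold ip
  rw [Finset.mul_sum]
  exact Finset.sum_congr rfl fun i _ => by simp; ring

theorem V0.ip_zero {d : ℕ} (a : Fin d → ℝ) : ip a (0 : Fin d → ℝ) = 0 := by
  unfold ip; simp

/-- orthogonality to all reaction vectors gives orthogonality to the stoichiometric subspace -/
theorem V0.ip_stoich {d : ℕ} (R : Network d) (a : Fin d → ℝ)
    (h : ∀ r ∈ R, ip a (reactionVector r) = 0) (x : Fin d → ℝ)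
    (hx : x ∈ stoichSubspace R) : ip a x = 0 := by
  unfold stoichSubspace at hx
  induction hx using Submodule.span_induction with
  | mem y hy =>
    obtain ⟨r, hr, rfl⟩ := hy
    exact h r (by exact_mod_cast hr)
  | zero => exact V0.ip_zero a
  | add y z _ _ hy hz => rw [V0.ip_add, hy, hz, add_zero]
  | smul c y _ hy => rw [V0.ip_smul, hy, mul_zero]

theorem V0.hasDeriv {d : ℕ} (a : Fin d → ℝ) (x : ℝ → (Fin d → ℝ)) (x' : Fin d → ℝ) (S : Set ℝ)
    (t : ℝ) (h : HasDerivWithinAt x x' S t) :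
    HasDerivWithinAt (fun s => ip a (x s)) (ip a x') S t := by
  unfold ip
  have h' := hasDerivWithinAt_pi.1 h
  exact HasDerivWithinAt.fun_sum fun i _ => (h' i).const_mul (a i)

theorem V0 : StO1 → StO2 → StV0 := by
  intro hO1 hO2 d R k c t₀ Y A hc hB F hF hFS x hx hx0 hxc
  have hclass : ∀ s, 0 ≤ s → x s - c ∈ stoichSubspace R := by
    intro s hs
    have h1 := hO2 d (stoichSubspace R) x (fun t => F (x t)) hx (fun t _ => hFS _) s hs
    have h2 := (stoichSubspace R).add_mem h1 hxc
    simpa using h2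
  have hmain : ∀ T, 0 ≤ T → ∀ s, 0 ≤ s → s ≤ T → ∀ p ∈ A, 0 ≤ ip p.1 (x s) - p.2 t₀ := by
    intro T hT s hs hsT p hp
    have key := hO1 {p // p ∈ A} inferInstance (fun p s => ip p.1.1 (x s) - p.1.2 t₀) T hT
      ?_ ?_ ?_ ⟨p, hp⟩ s hs hsT
    · exact key
    · intro q
      have : ContinuousOn (fun s => ip q.1.1 (x s)) (Set.Icc 0 T) := by
        intro u hu
        exact ((V0.hasDeriv q.1.1 x _ _ u (hx u hu.1)).continuousWithinAt).mono
          Set.Icc_subset_Ici_self
      exact this.sub continuousOn_const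
    · intro q
      exact sub_nonneg.2 (hx0 q.1 q.2)
    · intro s hs0 hsT hall q hq
      have hmem : x s ∈ KK A t₀ := fun p hp => sub_nonneg.1 (hall ⟨p, hp⟩)
      have heq : ip q.1.1 (x s) = q.1.2 t₀ := sub_eq_zero.1 hq
      rcases hB.act t₀ hB.t0pos le_rfl (x s) hmem q.1 q.2 heq with hort | hpos
      · right
        intro u hsu _
        have h1 := V0.ip_stoich R q.1.1 hort _ (hclass u (hs0.trans hsu))
        rw [V0.ip_sub] at h1
        have h2 := hB.cmem t₀ hB.t0pos le_rfl q.1 q.2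
        show 0 ≤ ip q.1.1 (x u) - q.1.2 t₀
        linarith
      · left
        refine ⟨ip q.1.1 (F (x s)), ?_, ?_⟩
        · rw [hF _ hmem]; exact hpos
        · have h1 := (V0.hasDeriv q.1.1 x _ _ s (hx s hs0)).mono
            (Set.Ici_subset_Ici.2 hs0)
          exact h1.sub_const _
  intro s hs
  exact ⟨fun p hp => sub_nonneg.1 (hmain s hs s hs le_rfl p hp), hclass s hs⟩

end Crest.Agent.R92
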