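import Crest.Agent.R92.Defs

set_option autoImplicit false
open Finset Filter Topology

namespace Crest.Agent.R92

open Crest.AnalysisR.MassAction

namespace VV1

variable {d : ℕ}

theorem exists_eps {α : Type*} (A : Finset α) (f : α → ℝ) (hf : ∀ p ∈ A, 0 < f p) :
    ∃ ε : ℝ, 0 < ε ∧ ∀ p ∈ A, ε ≤ f p := by
  classical
  induction A using Finset.induction_on with
  | empty => exact ⟨1, one_pos, by simp⟩
  | insert a A ha ih =>
    obtain ⟨ε, h1, h2⟩ := ih (fun p hp => hf p (Finset.mem_insert_of_mem hp))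
    refine ⟨min ε (f a), lt_min h1 (hf a (Finset.mem_insert_self _ _)), fun p hp => ?_⟩
    rcases Finset.mem_insert.1 hp with rfl | hp
    · exact min_le_right _ _
    · exact (min_le_left _ _).trans (h2 p hp)

theorem ip_hasDeriv (a : Fin d → ℝ) {x : ℝ → Fin d → ℝ} {x' : Fin d → ℝ} {S : Set ℝ} {t : ℝ}
    (h : HasDerivWithinAt x x' S t) :
    HasDerivWithinAt (fun s => ip a (x s)) (ip a x') S t := by
  unfold ip
  apply HasDerivWithinAt.fun_sum
  intro i _
  exact ((hasDerivWithinAt_pi.1 h) i).const_mul (a i)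

theorem ip_cont (a : Fin d → ℝ) : Continuous (ip a) := by
  unfold ip; fun_prop

theorem ip_sub (a x y : Fin d → ℝ) : ip a (x - y) = ip a x - ip a y := by
  simp [ip, mul_sub, Finset.sum_sub_distrib]

theorem ip_span {R : Network d} {a : Fin d → ℝ} (h : ∀ r ∈ R, ip a (reactionVector r) = 0)
    {v : Fin d → ℝ} (hv : v ∈ stoichSubspace R) : ip a v = 0 := by
  unfold stoichSubspace at hv
  induction hv using Submodule.span_induction with
  | mem x hx =>
    obtain ⟨r, hr, rfl⟩ := hx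
    exact h r hr
  | zero => simp [ip]
  | add x y _ _ hx hy =>
    have : ip a (x + y) = ip a x + ip a y := by simp [ip, mul_add, Finset.sum_add_distrib]
    rw [this, hx, hy, add_zero]
  | smul c x _ hx =>
    have : ip a (c • x) = c * ip a x := by
      simp only [ip, Pi.smul_apply, smul_eq_mul, Finset.mul_sum]
      refine Finset.sum_congr rfl fun i _ => ?_
      ring
    rw [this, hx, mul_zero]

theorem field_cont (R : Network d) (k : (Fin d → ℕ) × (Fin d → ℕ) → ℝ) :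
    Continuous (field R k) := by
  unfold field
  refine continuous_finsetSum _ fun r _ => ?_
  fun_prop

/-- uniform positivity of the drift -/
theorem exists_mu {R : Network d} {k : (Fin d → ℕ) × (Fin d → ℕ) → ℝ} {c : Fin d → ℝ} {t₀ Y : ℝ}
    {A : Finset ((Fin d → ℝ) × (ℝ → ℝ))} (hB : BSys R k c t₀ Y A) {τ₀ : ℝ} (hτ : 0 < τ₀)
    (p : (Fin d → ℝ) × (ℝ → ℝ)) (hp : p ∈ A)
    (hno : ¬ ∀ r ∈ R, ip p.1 (reactionVector r) = 0) :
    ∃ μ : ℝ, 0 < μ ∧ ∀ t, τ₀ ≤ t → t ≤ t₀ → ∀ x ∈ KK A t, ip p.1 x = p.2 t →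
      μ ≤ ip p.1 (field R k x) := by
  have hcont : ∀ q ∈ A, ContinuousOn q.2 (Set.Icc τ₀ t₀) := fun q hq =>
    (hB.geo.2.2 q hq).continuousOn.mono (fun t ht => lt_of_lt_of_le hτ ht.1)
  -- the compact set
  set Z : Set (ℝ × (Fin d → ℝ)) := {z | z ∈ Set.Icc τ₀ t₀ ×ˢ Set.Icc (fun _ => (0:ℝ))
    (fun _ => τ₀⁻¹) ∧ (∀ q ∈ A, q.2 z.1 ≤ ip q.1 z.2) ∧ ip p.1 z.2 = p.2 z.1} with hZ
  have hbox : IsCompact (Set.Icc τ₀ t₀ ×ˢ Set.Icc (fun _ : Fin d => (0:ℝ)) (fun _ => τ₀⁻¹)) :=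
    isCompact_Icc.prod isCompact_Icc
  have hclosed : IsClosed Z := by
    have hbc := hbox.isClosed
    have h2 : ∀ q ∈ A, ContinuousOn (fun z : ℝ × (Fin d → ℝ) => ip q.1 z.2 - q.2 z.1)
        (Set.Icc τ₀ t₀ ×ˢ Set.Icc (fun _ : Fin d => (0:ℝ)) (fun _ => τ₀⁻¹)) := by
      intro q hq
      refine ContinuousOn.sub ((ip_cont q.1).comp continuous_snd).continuousOn ?_
      exact (hcont q hq).comp continuous_fst.continuousOn (fun z hz => hz.1)
    have h3 : Z = (⋂ q ∈ A, ((Set.Icc τ₀ t₀ ×ˢ Set.Icc (fun _ : Fin d => (0:ℝ)) (fun _ => τ₀⁻¹)) ∩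
        (fun z : ℝ × (Fin d → ℝ) => ip q.1 z.2 - q.2 z.1) ⁻¹' Set.Ici 0)) ∩
        ((Set.Icc τ₀ t₀ ×ˢ Set.Icc (fun _ : Fin d => (0:ℝ)) (fun _ => τ₀⁻¹)) ∩
        (fun z : ℝ × (Fin d → ℝ) => ip p.1 z.2 - p.2 z.1) ⁻¹' {0}) := by
      ext z
      simp only [hZ, Set.mem_ofPred_eq, Set.mem_inter_iff, Set.mem_iInter, Set.mem_preimage,
        Set.mem_Ici, sub_nonneg, Set.mem_singleton_iff, sub_eq_zero]
      constructor
      · rintro ⟨h1, h2, h3⟩
        exact ⟨fun q hq => ⟨h1, h2 q hq⟩, h1, h3⟩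
      · rintro ⟨h1, h2, h3⟩
        exact ⟨h2, fun q hq => (h1 q hq).2, h3⟩
    rw [h3]
    refine IsClosed.inter (isClosed_biInter fun q hq => ?_) ?_
    · exact (h2 q hq).preimage_isClosed_of_isClosed hbc isClosed_Ici
    · exact (h2 p hp).preimage_isClosed_of_isClosed hbc isClosed_singleton
  have hcomp : IsCompact Z := hbox.of_isClosed_subset hclosed (fun z hz => hz.1)
  have hmem : ∀ t, τ₀ ≤ t → t ≤ t₀ → ∀ x ∈ KK A t, ip p.1 x = p.2 t → (t, x) ∈ Z := by
    intro t h1 h2 x hx hx2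
    refine ⟨⟨⟨h1, h2⟩, ?_⟩, hx, hx2⟩
    have ht0 : 0 < t := lt_of_lt_of_le hτ h1
    have h3 := hB.geo.1 t ht0 (lt_of_le_of_lt h2 hB.t0lt) x hx
    constructor
    · intro i
      exact (Real.rpow_pos_of_pos ht0 Y).le.trans (h3 i).1
    · intro i
      exact (h3 i).2.trans (inv_anti₀ hτ h1)
  have hφ : ContinuousOn (fun z : ℝ × (Fin d → ℝ) => ip p.1 (field R k z.2)) Z := by
    have h1 : Continuous (fun z : ℝ × (Fin d → ℝ) => field R k z.2) :=
      (field_cont R k).comp continuous_snd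
    exact ((ip_cont p.1).comp h1).continuousOn
  by_cases hne : Z.Nonempty
  · obtain ⟨z, hz, hmin⟩ := hcomp.exists_isMinOn hne hφ
    refine ⟨ip p.1 (field R k z.2), ?_, ?_⟩
    · have ht0 : 0 < z.1 := lt_of_lt_of_le hτ hz.1.1.1
      rcases hB.act z.1 ht0 hz.1.1.2 z.2 hz.2.1 p hp hz.2.2 with h | h
      · exact absurd h hno
      · exact h
    · intro t h1 h2 x hx hx2
      have h3 := hmem t h1 h2 x hx hx2
      have h4 := isMinOn_iff.1 hmin (t, x) h3
      exact h4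
  · exact ⟨1, one_pos, fun t h1 h2 x hx hx2 => absurd ⟨_, hmem t h1 h2 x hx hx2⟩ hne⟩

/-- bound of the derivative -/
theorem exists_B {f : ℝ → ℝ} (hf : ContDiffOn ℝ 1 f (Set.Ioi 0)) {τ₀ : ℝ} (hτ : 0 < τ₀)
    (t₀ : ℝ) : ∃ B : ℝ, 0 < B ∧ ∀ t, τ₀ ≤ t → t ≤ t₀ → |deriv f t| ≤ B := by
  have h1 : ContinuousOn (deriv f) (Set.Ioi 0) := hf.continuousOn_deriv_of_isOpen isOpen_Ioi le_rfl
  have h2 : ContinuousOn (deriv f) (Set.Icc τ₀ t₀) := h1.mono (fun t ht => lt_of_lt_of_le hτ ht.1)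
  obtain ⟨B, hB⟩ := isCompact_Icc.exists_bound_of_continuousOn h2
  refine ⟨|B| + 1, by positivity, fun t ht1 ht2 => ?_⟩
  have := hB t ⟨ht1, ht2⟩
  rw [Real.norm_eq_abs] at this
  exact this.trans ((le_abs_self B).trans (by linarith))

end VV1

open VV1 in
theorem V1 (hO1 : StO1) (hO2 : StO2) : StV1 := by
  classical
  intro d R k c t₀ Y A hc hB τ₀ hτ hτt
  -- choose epsilon
  have hex : ∀ p : (Fin d → ℝ) × (ℝ → ℝ), ∃ e : ℝ, p ∈ A → 0 < e ∧
      ((∀ r ∈ R, ip p.1 (reactionVector r) = 0) ∨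
        ∀ t, τ₀ ≤ t → t ≤ t₀ → ∀ x ∈ KK A t, ip p.1 x = p.2 t →
          deriv p.2 t * e < ip p.1 (field R k x) ∧ ∀ e', 0 < e' → e' ≤ e →
            deriv p.2 t * e' < ip p.1 (field R k x)) := by
    intro p
    by_cases hp : p ∈ A
    · by_cases hno : ∀ r ∈ R, ip p.1 (reactionVector r) = 0
      · exact ⟨1, fun _ => ⟨one_pos, Or.inl hno⟩⟩
      · obtain ⟨μ, hμ, h1⟩ := exists_mu hB hτ p hp hno
        obtain ⟨B, hB0, h2⟩ := exists_B (hB.geo.2.2 p hp) hτ t₀
        refine ⟨μ / (2 * B), fun _ => ⟨by positivity, Or.inr ?_⟩⟩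
        intro t ht1 ht2 x hx hx2
        have h3 := h1 t ht1 ht2 x hx hx2
        have h4 := h2 t ht1 ht2
        have key : ∀ e', 0 < e' → e' ≤ μ / (2 * B) →
            deriv p.2 t * e' < ip p.1 (field R k x) := by
          intro e' he1 he2
          have h5 : deriv p.2 t * e' ≤ B * (μ / (2 * B)) := by
            calc deriv p.2 t * e' ≤ |deriv p.2 t| * e' :=
                  mul_le_mul_of_nonneg_right (le_abs_self _) he1.le
              _ ≤ B * (μ / (2 * B)) := by gcongr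
          have h6 : B * (μ / (2 * B)) = μ / 2 := by field_simp
          linarith
        exact ⟨key _ (by positivity) le_rfl, key⟩
    · exact ⟨1, fun h => absurd h hp⟩
  choose e he using hex
  obtain ⟨ε, hε, hεe⟩ := exists_eps A e (fun p hp => (he p hp).1)
  refine ⟨ε, hε, ?_⟩
  intro F hF hFS x hx hx0 hxc
  -- class invariance
  have hcls : ∀ t, 0 ≤ t → x t - c ∈ stoichSubspace R := by
    intro t ht
    have h1 := hO2 d (stoichSubspace R) x (fun t => F (x t)) (fun t ht => hx t ht)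
      (fun t _ => hFS _) t ht
    have := Submodule.add_mem _ h1 hxc
    rwa [sub_add_sub_cancel] at this
  intro T hT hTt
  have hxcont : ContinuousOn x (Set.Ici 0) := fun t ht => (hx t ht).continuousWithinAt
  have hτs : ∀ s, 0 ≤ s → τ₀ ≤ τ₀ + ε * s := fun s hs => by nlinarith
  have hτs' : ∀ s, s ≤ T → τ₀ + ε * s ≤ t₀ := fun s hs => by nlinarith
  have key := hO1 {p // p ∈ A} inferInstance
    (fun p s => ip p.1.1 (x s) - p.1.2 (τ₀ + ε * s)) T hT ?_ ?_ ?_
  · intro p hp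
    have := key ⟨p, hp⟩ T hT le_rfl
    simpa [sub_nonneg] using this
  · rintro ⟨p, hp⟩
    refine ContinuousOn.sub ?_ ?_
    · exact (ip_cont p.1).comp_continuousOn (hxcont.mono (fun s hs => hs.1))
    · have h1 : ContinuousOn p.2 (Set.Ioi 0) := (hB.geo.2.2 p hp).continuousOn
      have h2 : ContinuousOn (fun s : ℝ => τ₀ + ε * s) (Set.Icc 0 T) := by fun_prop
      exact h1.comp h2 (fun s hs => lt_of_lt_of_le hτ (hτs s hs.1))
  · rintro ⟨p, hp⟩
    have := hx0 p hp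
    simpa [sub_nonneg] using this
  · rintro s hs hsT hall ⟨p, hp⟩ hzero
    have hKK : x s ∈ KK A (τ₀ + ε * s) := by
      intro q hq
      have := hall ⟨q, hq⟩
      simpa [sub_nonneg] using this
    have hpz : ip p.1 (x s) = p.2 (τ₀ + ε * s) := by
      simpa [sub_eq_zero] using hzero
    rcases (he p hp).2 with h1 | h1
    · right
      intro u hu1 hu2
      have hu0 : 0 ≤ u := hs.trans hu1
      have h2 := ip_span h1 (hcls u hu0)
      rw [ip_sub, sub_eq_zero] at h2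
      have h3 := hB.cmem (τ₀ + ε * u) (lt_of_lt_of_le hτ (hτs u hu0)) (hτs' u hu2) p hp
      simp only [h2, sub_nonneg]
      exact h3
    · left
      have h2 := (h1 _ (hτs s hs) (hτs' s hsT.le) (x s) hKK hpz).2 ε hε (hεe p hp)
      have hFx : F (x s) = field R k (x s) := hF _ (hτs s hs) (hτs' s hsT.le) _ hKK
      refine ⟨ip p.1 (field R k (x s)) - deriv p.2 (τ₀ + ε * s) * ε, by linarith, ?_⟩
      refine HasDerivWithinAt.sub ?_ ?_
      · have h3 := (hx s hs).mono (Set.Ici_subset_Ici.2 hs)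
        rw [hFx] at h3
        exact ip_hasDeriv p.1 h3
      · have hpos : 0 < τ₀ + ε * s := lt_of_lt_of_le hτ (hτs s hs)
        have h4 : HasDerivAt p.2 (deriv p.2 (τ₀ + ε * s)) (τ₀ + ε * s) :=
          (((hB.geo.2.2 p hp).contDiffAt (Ioi_mem_nhds hpos)).differentiableAt
            (by norm_num)).hasDerivAt
        have h5 : HasDerivAt (fun s : ℝ => τ₀ + ε * s) ε s := by
          simpa using ((hasDerivAt_id s).const_mul ε).const_add τ₀
        exact (h4.comp s h5).hasDerivWithinAt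

end Crest.Agent.R92
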